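import Vale.Agent.P098.C.Prj

/-!
# P098 C/Cyl  (helper names start with cyl_)

Dimension reduction.  For a competitor `v` (`= V` for `‖y‖ ≥ R`, `R > 0`) use `w x = V (prj x) + η (x 0) * (v (prj x) - V (prj x))`, `η t = max 0 (min 1 (N + 1 - |t|))`.  It is Lipschitz with a constant independent of `N` (`v - V` is bounded) and
`en w x - en (V ∘ prj) x ≤ 1_{|t| < N} (en v - en V) (prj x) + C 1_{N ≤ |t| ≤ N + 1} 1_{‖prj x‖ ≤ R}` everywhere (`en_congr`, `en_prj`, the complement is covered by open sets); `integral_cyl`: `0 ≤ 2 N I + 2 C volume`, `N → ∞`.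
-/

set_option maxSynthPendingDepth 3

open MeasureTheory Filter Topology Set Metric
open scoped ContDiff RealInnerProductSpace NNReal

noncomputable section

namespace Vale.Agent.P098

variable {d : ℕ}

/-- The cut-off in the first coordinate. -/
def cyl_eta (N t : ℝ) : ℝ := max 0 (min 1 (N + 1 - |t|))

theorem cyl_mem (N t : ℝ) : 0 ≤ cyl_eta N t ∧ cyl_eta N t ≤ 1 :=
  ⟨le_max_left _ _, max_le zero_le_one (min_le_left _ _)⟩

theorem cyl_one {N t : ℝ} (h : |t| ≤ N) : cyl_eta N t = 1 := by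
  rw [cyl_eta, min_eq_left (by linarith), max_eq_right zero_le_one]

theorem cyl_zero {N t : ℝ} (h : N + 1 ≤ |t|) : cyl_eta N t = 0 :=
  max_eq_left ((min_le_right _ _).trans (by linarith))

theorem cyl_lip (N s t : ℝ) : |cyl_eta N s - cyl_eta N t| ≤ |s - t| := by
  unfold cyl_eta
  rw [max_comm 0, max_comm 0]
  refine (abs_max_sub_max_le_abs _ _ _).trans ?_
  refine (abs_min_sub_min_le_max _ _ _ _).trans (max_le (by simp) ?_)
  rw [show N + 1 - |s| - (N + 1 - |t|) = |t| - |s| by ring, abs_sub_comm s t]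
  exact abs_abs_sub_abs_le_abs_sub t s

theorem cyl_coord (x : E (d + 1)) : |x 0| ≤ ‖x‖ := by
  have h := norm_sq_prj x
  exact abs_le_of_sq_le_sq (by nlinarith [sq_nonneg ‖prj x‖]) (norm_nonneg _)

theorem cyl_sub (x y : E (d + 1)) : ‖prj x - prj y‖ ≤ ‖x - y‖ := by
  obtain ⟨A, hA⟩ := exists_prjL d
  rw [← hA, ← hA, ← map_sub, hA]
  exact norm_prj_le _

theorem cyl_cont : Continuous (prj : E (d + 1) → E d) := by
  obtain ⟨A, hA⟩ := exists_prjL d
  exact A.continuous.congr hA

theorem cyl_lipw {V g : E d → ℝ} {a b c : ℝ} (ha : 0 ≤ a) (hb : 0 ≤ b) (hc : 0 ≤ c)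
    (hV : ∀ x y, |V x - V y| ≤ a * ‖x - y‖) (hg : ∀ x y, |g x - g y| ≤ b * ‖x - y‖)
    (hB : ∀ x, |g x| ≤ c) (N : ℝ) (x y : E (d + 1)) :
    |V (prj x) + cyl_eta N (x 0) * g (prj x) - (V (prj y) + cyl_eta N (y 0) * g (prj y))| ≤
      (a + b + c) * ‖x - y‖ := by
  have h1 := (hV (prj x) (prj y)).trans (mul_le_mul_of_nonneg_left (cyl_sub x y) ha)
  have h2 := (hg (prj x) (prj y)).trans (mul_le_mul_of_nonneg_left (cyl_sub x y) hb)
  have h3 : |cyl_eta N (x 0) - cyl_eta N (y 0)| ≤ ‖x - y‖ :=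
    (cyl_lip N _ _).trans (cyl_coord (x - y))
  have h4 : |(cyl_eta N (x 0) - cyl_eta N (y 0)) * g (prj x)| ≤ ‖x - y‖ * c := by
    rw [abs_mul]
    exact mul_le_mul h3 (hB _) (abs_nonneg _) (norm_nonneg _)
  have h5 : |cyl_eta N (y 0) * (g (prj x) - g (prj y))| ≤ 1 * (b * ‖x - y‖) := by
    rw [abs_mul, abs_of_nonneg (cyl_mem N _).1]
    exact mul_le_mul (cyl_mem N _).2 h2 (abs_nonneg _) zero_le_one
  have e : V (prj x) + cyl_eta N (x 0) * g (prj x) - (V (prj y) + cyl_eta N (y 0) * g (prj y)) =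
      (V (prj x) - V (prj y)) + (cyl_eta N (x 0) - cyl_eta N (y 0)) * g (prj x) +
        cyl_eta N (y 0) * (g (prj x) - g (prj y)) := by ring
  rw [e]
  refine (abs_add_three _ _ _).trans ?_
  linarith

theorem cyl_en_le {w : E d → ℝ} {K : ℝ} (hK : 0 ≤ K) (h : ∀ x y, |w x - w y| ≤ K * ‖x - y‖)
    (x : E d) : en w x ≤ K ^ 2 + 1 := by
  have hL : LipschitzWith ⟨K, hK⟩ w := LipschitzWith.of_dist_le_mul fun x y => by
    rw [Real.dist_eq, dist_eq_norm]
    exact h x y
  have h1 : ‖fderiv ℝ w x‖ ≤ K := norm_fderiv_le_of_lipschitz ℝ hL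
  have h2 : ‖fderiv ℝ w x‖ ^ 2 ≤ K ^ 2 := pow_le_pow_left₀ (norm_nonneg _) h1 2
  unfold en
  split_ifs <;> linarith

theorem cyl_pt {V v : E d → ℝ} {R C N : ℝ} (hR : ∀ y, R ≤ ‖y‖ → v y = V y)
    (hC : ∀ x, en (fun x : E (d + 1) => V (prj x) + cyl_eta N (x 0) * (v (prj x) - V (prj x))) x ≤ C)
    (x : E (d + 1)) :
    en (fun x : E (d + 1) => V (prj x) + cyl_eta N (x 0) * (v (prj x) - V (prj x))) x -
        en (fun x : E (d + 1) => V (prj x)) x ≤
      (Ioo (-N) N).indicator 1 (x 0) * (en v (prj x) - en V (prj x) -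
        (closedBall (0 : E d) R).indicator (fun _ => C) (prj x)) +
      (Icc (-(N + 1)) (N + 1)).indicator 1 (x 0) *
        (closedBall (0 : E d) R).indicator (fun _ => C) (prj x) := by
  have hc0 : Continuous fun x : E (d + 1) => |x 0| := by fun_prop
  by_cases h1 : |x 0| < N
  · have he : (fun x : E (d + 1) => V (prj x) + cyl_eta N (x 0) * (v (prj x) - V (prj x))) =ᶠ[𝓝 x]
        fun x => v (prj x) := by
      filter_upwards [hc0.continuousAt.eventually_lt continuousAt_const h1] with y hy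
      rw [cyl_one hy.le]
      ring
    have h2 := abs_lt.1 h1
    rw [en_congr he, en_prj, en_prj, indicator_of_mem (show x 0 ∈ Ioo (-N) N from h2),
      indicator_of_mem (show x 0 ∈ Icc (-(N + 1)) (N + 1) from ⟨by linarith, by linarith⟩)]
    simp
  · rw [indicator_of_notMem (show x 0 ∉ Ioo (-N) N from fun h => h1 (abs_lt.2 h)), zero_mul,
      zero_add]
    by_cases h2 : N + 1 < |x 0|
    · have he : (fun x : E (d + 1) => V (prj x) + cyl_eta N (x 0) * (v (prj x) - V (prj x))) =ᶠ[𝓝 x]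
          fun x => V (prj x) := by
        filter_upwards [continuousAt_const.eventually_lt hc0.continuousAt h2] with y hy
        rw [cyl_zero hy.le]
        ring
      rw [en_congr he, indicator_of_notMem (show x 0 ∉ Icc (-(N + 1)) (N + 1) from
        fun h => absurd (abs_le.2 h) (not_le.2 h2)), zero_mul, sub_self]
    · rw [indicator_of_mem (show x 0 ∈ Icc (-(N + 1)) (N + 1) from abs_le.1 (not_lt.1 h2)),
        Pi.one_apply, one_mul]
      by_cases h3 : prj x ∈ closedBall (0 : E d) R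
      · rw [indicator_of_mem h3]
        linarith [hC x, en_nonneg (fun x : E (d + 1) => V (prj x)) x]
      · rw [indicator_of_notMem h3]
        rw [mem_closedBall_zero_iff, not_le] at h3
        have he : (fun x : E (d + 1) => V (prj x) + cyl_eta N (x 0) * (v (prj x) - V (prj x)))
            =ᶠ[𝓝 x] fun x => V (prj x) := by
          filter_upwards [continuousAt_const.eventually_lt cyl_cont.norm.continuousAt h3] with y hy
          rw [hR _ hy.le]
          ring
        rw [en_congr he, sub_self]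

theorem Mn.section {V : E d → ℝ} (h : Mn fun x : E (d + 1) => V (prj x)) : Mn V := by
  have hV : Lip V := by
    obtain ⟨C, -, -, hC⟩ := h.lip.bdd
    obtain ⟨A, hA⟩ := exists_insL d
    refine lip_mk (C := C) fun x y => ?_
    have := hC (ins x) (ins y)
    rwa [prj_ins, prj_ins, ← hA, ← hA, ← map_sub, hA, norm_ins] at this
  have hn : ∀ y, 0 ≤ V y := fun y => by
    have := h.nn (ins y)
    rwa [prj_ins] at this
  refine ⟨hV, hn, ?_⟩
  rintro v hv hv0 ⟨R₀, hR₀⟩
  obtain ⟨R, hR0, hR⟩ : ∃ R : ℝ, 0 ≤ R ∧ ∀ y, R ≤ ‖y‖ → v y = V y :=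
    ⟨|R₀|, abs_nonneg _, fun y hy => hR₀ y ((le_abs_self _).trans hy)⟩
  obtain ⟨a, ha, -, hVa⟩ := hV.bdd
  obtain ⟨b, hb, -, hgb⟩ := (hv.sub hV).bdd
  obtain ⟨c, hc, hgc⟩ : ∃ c : ℝ, 0 ≤ c ∧ ∀ y, |v y - V y| ≤ c := by
    obtain ⟨c, hc⟩ := (isCompact_closedBall (0 : E d) R).exists_bound_of_continuousOn
      (hv.sub hV).continuous.continuousOn
    refine ⟨|c|, abs_nonneg _, fun y => ?_⟩
    by_cases hy : R ≤ ‖y‖
    · rw [hR y hy, sub_self, abs_zero]
      exact abs_nonneg _
    · exact (hc y (mem_closedBall_zero_iff.2 (not_le.1 hy).le)).trans (le_abs_self _)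
  have hK : 0 ≤ a + b + c := by positivity
  have hG := integrable_en_sub hV hv hR
  have hH : Integrable ((closedBall (0 : E d) R).indicator fun _ => (a + b + c) ^ 2 + 1) :=
    IntegrableOn.integrable_indicator (integrableOn_const measure_closedBall_lt_top.ne)
      measurableSet_closedBall
  obtain ⟨H, hHd⟩ : ∃ H, H = ∫ y, (closedBall (0 : E d) R).indicator
    (fun _ => (a + b + c) ^ 2 + 1) y := ⟨_, rfl⟩
  have key : ∀ N : ℝ, 0 ≤ N → 0 ≤ N * (∫ y, (en v y - en V y)) + H := by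
    intro N hN
    have hw := cyl_lipw (g := fun y => v y - V y) ha hb hc hVa hgb hgc N
    have hfar : ∀ x : E (d + 1), R + N + 1 ≤ ‖x‖ →
        V (prj x) + cyl_eta N (x 0) * (v (prj x) - V (prj x)) = V (prj x) := by
      intro x hx
      by_cases h1 : N + 1 ≤ |x 0|
      · rw [cyl_zero h1]
        ring
      · have h2 : R ≤ ‖prj x‖ := by
          by_contra h2
          have h3 := norm_sq_prj x
          have h4 : x 0 ^ 2 < (N + 1) ^ 2 := sq_lt_sq' (abs_lt.1 (not_le.1 h1)).1
            (abs_lt.1 (not_le.1 h1)).2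
          have h5 : ‖prj x‖ ^ 2 ≤ R ^ 2 := pow_le_pow_left₀ (norm_nonneg _) (not_le.1 h2).le 2
          have h6 : (R + N + 1) ^ 2 ≤ ‖x‖ ^ 2 := pow_le_pow_left₀ (by positivity) hx 2
          nlinarith [mul_nonneg hR0 hN]
        rw [hR _ h2]
        ring
    have h0 := h.le _ (lip_mk hw) (fun x => by
      have h1 := cyl_mem N (x 0)
      nlinarith [mul_nonneg h1.1 (hv0 (prj x)), mul_nonneg (sub_nonneg.2 h1.2) (hn (prj x))])
      ⟨_, hfar⟩
    have i1 : Integrable ((Ioo (-N) N).indicator (1 : ℝ → ℝ)) :=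
      IntegrableOn.integrable_indicator (integrableOn_const measure_Ioo_lt_top.ne)
        measurableSet_Ioo
    have i2 : Integrable ((Icc (-(N + 1)) (N + 1)).indicator (1 : ℝ → ℝ)) :=
      IntegrableOn.integrable_indicator (integrableOn_const measure_Icc_lt_top.ne)
        measurableSet_Icc
    have j1 := integrable_cyl i1 (hG.sub hH)
    have j2 := integrable_cyl i2 hH
    have h1 := integral_mono (integrable_en_sub h.lip (lip_mk hw) hfar) (j1.add j2)
      (cyl_pt hR (cyl_en_le hK hw))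
    rw [integral_add' j1 j2, integral_cyl, integral_cyl, integral_sub' hG hH, ← hHd,
      integral_indicator_one measurableSet_Ioo, integral_indicator_one measurableSet_Icc,
      Real.volume_real_Ioo_of_le (by linarith), Real.volume_real_Icc_of_le (by linarith)] at h1
    linarith
  by_contra hneg
  generalize ∫ y, (en v y - en V y) = I at key hneg
  have hI : 0 < -I := by linarith [not_le.1 hneg]
  have hI' : I ≠ 0 := (not_le.1 hneg).ne
  have h1 := key ((|H| + 1) / -I) (by positivity)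
  have h2 : (|H| + 1) / -I * I = -(|H| + 1) := by
    field_simp
  linarith [le_abs_self H]

end Vale.Agent.P098
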