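import Vale.Agent.P098.C.WeissC
import Vale.Agent.P098.C.Cyl
import Vale.Agent.P098.B.Nondeg

/-!
# P098 C/BlowA  (helper names start with blowa_)

Blow-up at a free boundary point away from the vertex.  `u' = sc u x₀ 1`, `r k = 1 / (k + 1)`, `sc u' 0 r = sc u x₀ r` (`sc_sc`), `exists_subseq`, `mn_lim`, `hom_lim`.  `blow_inv`: `sc u x₀ r (x + t • x₀) = (1 + r t) * sc u x₀ r ((1 + r t)⁻¹ • x)` for `1 + r t > 0` and the uniform Lipschitz bound.
`flat_of_inv`: `exists_iso` with `R (bv 0) = ‖x₀‖⁻¹ • x₀`, `V y = U (R (ins y))`, `U (R x) = V (prj x)` (`ins_prj`), `Mn.iso`, `Mn.section`; the new unit vector is `R (ins e)`.  `U = 0` is excluded by `nondeg`, `unif_of_tendsto` and `fb_sc`.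
-/

set_option maxSynthPendingDepth 3

open MeasureTheory Filter Topology Set Metric
open scoped ContDiff RealInnerProductSpace NNReal

noncomputable section

namespace Vale.Agent.P098

variable {d : ℕ}

theorem blowa_id {u : E d → ℝ} (hh : Hom u) (x₀ x : E d) {r t : ℝ} (h : 0 < 1 + r * t) :
    sc u x₀ r (x + t • x₀) = (1 + r * t) * sc u x₀ r ((1 + r * t)⁻¹ • x) := by
  have e : x₀ + r • (x + t • x₀) = (1 + r * t) • (x₀ + r • ((1 + r * t)⁻¹ • x)) := by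
    rw [smul_add (1 + r * t), smul_comm r (1 + r * t)⁻¹ x, smul_inv_smul₀ h.ne', smul_add,
      add_smul, one_smul, mul_smul]
    abel
  simp only [sc]
  rw [e, hh _ h, mul_div_assoc]

theorem blow_inv {u U : E d → ℝ} (hu : Lip u) (hh : Hom u) {x₀ : E d} (h0 : u x₀ = 0) {r : ℕ → ℝ}
    (hr : ∀ k, 0 < r k) (hz : Tendsto r atTop (𝓝 0))
    (hU : ∀ x, Tendsto (fun k => sc u x₀ (r k) x) atTop (𝓝 (U x))) (x : E d) (t : ℝ) :
    U (x + t • x₀) = U x := by
  obtain ⟨L, hL⟩ := hu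
  have h1 : Tendsto (fun k => 1 + r k * t) atTop (𝓝 1) := by
    simpa using (hz.mul_const t).const_add 1
  have h2 : Tendsto (fun k => (L : ℝ) * ‖(1 + r k * t)⁻¹ • x - x‖) atTop (𝓝 0) := by
    have := ((((h1.inv₀ one_ne_zero).smul_const x).sub_const x).norm).const_mul (L : ℝ)
    simpa using this
  have h3 : Tendsto (fun k => sc u x₀ (r k) ((1 + r k * t)⁻¹ • x) - sc u x₀ (r k) x) atTop (𝓝 0) :=
    squeeze_zero_norm (fun k => lip_le (lipschitzWith_sc hL x₀ (hr k)) _ _) h2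
  have h4 : Tendsto (fun k => (1 + r k * t) * sc u x₀ (r k) ((1 + r k * t)⁻¹ • x)) atTop
      (𝓝 (U x)) := by
    simpa using h1.mul (h3.add (hU x))
  refine tendsto_nhds_unique (hU _) (h4.congr' ?_)
  filter_upwards [h1.eventually (lt_mem_nhds one_pos)] with k hk
  exact (blowa_id hh x₀ x hk).symm

theorem flat_of_inv (ih : ∀ V : E d → ℝ, Mn V → Hom V → Flat V) {U : E (d + 1) → ℝ} (h : Mn U)
    (hh : Hom U) {x₀ : E (d + 1)} (hx : x₀ ≠ 0) (hi : ∀ x (t : ℝ), U (x + t • x₀) = U x) : Flat U := by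
  have hn : ‖(bv 0 : E (d + 1))‖ = ‖(‖x₀‖⁻¹ • x₀ : E (d + 1))‖ := by
    have h1 : ‖(‖x₀‖⁻¹ • x₀ : E (d + 1))‖ = 1 := norm_smul_inv_norm hx
    rw [h1]
    simp [bv]
  obtain ⟨R, hR⟩ := exists_iso hn
  have e : ∀ x, U (R x) = U (R (ins (prj x))) := fun x => by
    conv_lhs => rw [← ins_prj x, map_add, map_smul, hR, smul_smul, hi]
  have hm : Mn fun y : E d => U (R (ins y)) := by
    refine Mn.section ?_
    have := h.iso R
    simpa only [← e] using this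
  have hv : Hom fun y : E d => U (R (ins y)) := fun r hr y => by
    simp only [ins_smul, map_smul]
    exact hh r hr _
  have e' : ∀ z, U z = U (R (ins (prj (R.symm z)))) := fun z => by
    rw [← e, R.apply_symm_apply]
  rcases ih _ hm hv with h0 | ⟨v, hv1, hv2⟩
  · exact Or.inl fun z => (e' z).trans (h0 _)
  · refine Or.inr ⟨R (ins v), by rw [R.norm_map, norm_ins, hv1], fun z => ?_⟩
    refine (e' z).trans ((hv2 (prj (R.symm z))).trans ?_)
    rw [← inner_ins, ← R.inner_map_map, R.apply_symm_apply]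

theorem blow_close (ih : ∀ V : E d → ℝ, Mn V → Hom V → Flat V) {u : E (d + 1) → ℝ} (h : Mn u)
    (hh : Hom u) {x₀ : E (d + 1)} (hx : x₀ ≠ 0) (hb : x₀ ∈ FB u) {δ : ℝ} (hδ : 0 < δ) :
    ∃ (r : ℝ) (e : E (d + 1)), 0 < r ∧ r ≤ 1 ∧ ‖e‖ = 1 ∧
      ∀ x, ‖x‖ ≤ 2 → |sc u x₀ r x - max ⟪e, x⟫ 0| ≤ δ := by
  obtain ⟨L, hL⟩ := h.lip
  have hp : ∀ k : ℕ, (0 : ℝ) < 1 / ((k : ℝ) + 1) := fun k => by positivity
  have hz : ∀ r, sc u x₀ r 0 = 0 := fun r => by simp [sc, hb.1]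
  obtain ⟨φ, U, hφ, hU⟩ := exists_subseq (u := fun k : ℕ => sc u x₀ (1 / ((k : ℝ) + 1)))
    (fun k => lipschitzWith_sc hL x₀ (hp k)) fun k => hz _
  set r : ℕ → ℝ := fun k => 1 / ((φ k : ℝ) + 1) with hr
  have r0 : ∀ k, 0 < r k := fun k => hp _
  have r1 : ∀ k, r k ≤ 1 := fun k => by
    rw [hr, div_le_one (by positivity)]
    linarith [(Nat.cast_nonneg (φ k) : (0 : ℝ) ≤ φ k)]
  have rz : Tendsto r atTop (𝓝 0) :=
    tendsto_one_div_add_atTop_nhds_zero_nat.comp hφ.tendsto_atTop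
  have hU' : ∀ x, Tendsto (fun k => sc u x₀ (r k) x) atTop (𝓝 (U x)) := hU
  have hLk : ∀ k, LipschitzWith L (sc u x₀ (r k)) := fun k => lipschitzWith_sc hL x₀ (r0 k)
  have hM : Mn U := mn_lim (fun k => h.sc x₀ (r0 k)) hLk hU'
  have hH : Hom U := by
    refine hom_lim (h.sc x₀ one_pos) (hz 1) r0 rz fun x => ?_
    simpa only [sc_sc, smul_zero, add_zero, one_mul] using hU' x
  rcases flat_of_inv ih hM hH hx (blow_inv h.lip hh hb.1 r0 rz hU') with h0 | ⟨e, he, h1⟩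
  · exfalso
    obtain ⟨c, hc, H⟩ := nondeg (d + 1)
    obtain ⟨k, hk⟩ := (unif_of_tendsto hLk hU' 1 hc).exists
    have hf : (0 : E (d + 1)) ∈ FB (sc u x₀ (r k)) := (fb_sc (r0 k)).2 (by simpa using hb)
    obtain ⟨y, hy, hy'⟩ := hf.2 (1 / 2) one_half_pos
    refine hy'.ne' (H _ (h.sc x₀ (r0 k)) 0 1 one_pos (fun z hz => ?_) y hy)
    have := hk z (by simpa using hz)
    rw [h0, sub_zero] at this
    rw [mul_one]
    exact (le_abs_self _).trans this
  · obtain ⟨k, hk⟩ := (unif_of_tendsto hLk hU' 2 hδ).exists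
    exact ⟨r k, e, r0 k, r1 k, he, fun x hx => h1 x ▸ hk x hx⟩

end Vale.Agent.P098
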