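import Vale.Agent.P098.C.BlowA

/-!
# P098 C/BlowB  (helper names start with blowb_)

Uniform flatness.  `K = FB u ∩ sphere 0 1` is compact; at `y ∈ K` take `r y`, `e y` from `blow_close` with `δ / 2`; `|sc u x₀ r x - sc u y r x| ≤ L ‖x₀ - y‖ / r`; `IsCompact.elim_nhds_subcover` (or `IsCompact.induction_on`), `trap_of_close`.
-/

set_option maxSynthPendingDepth 3

open MeasureTheory Filter Topology Set Metric
open scoped ContDiff RealInnerProductSpace NNReal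

noncomputable section

namespace Vale.Agent.P098

variable {d : ℕ}

theorem blow_unif (ih : ∀ V : E d → ℝ, Mn V → Hom V → Flat V) {u : E (d + 1) → ℝ} (h : Mn u)
    (hh : Hom u) {σ : ℝ} (hσ : 0 < σ) : ∃ r₀ : ℝ, 0 < r₀ ∧ ∀ x₀ ∈ FB u, ‖x₀‖ = 1 →
      ∃ (r : ℝ) (e : E (d + 1)), r₀ ≤ r ∧ r ≤ 1 ∧ ‖e‖ = 1 ∧
        Trap (sc u x₀ r) (fun x => ⟪e, x⟫) 1 σ := by
  obtain ⟨δ, hδ, H⟩ := trap_of_close (d + 1) hσ
  obtain ⟨L, hL0, -, hL⟩ := h.lip.bdd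
  have hK : IsCompact (FB u ∩ sphere (0 : E (d + 1)) 1) :=
    (isCompact_sphere _ _).inter_left (isClosed_FB h.lip.continuous)
  have key : ∃ r₀ : ℝ, 0 < r₀ ∧ ∀ x₀ ∈ FB u ∩ sphere (0 : E (d + 1)) 1,
      ∃ (r : ℝ) (e : E (d + 1)), r₀ ≤ r ∧ r ≤ 1 ∧ ‖e‖ = 1 ∧
        Trap (sc u x₀ r) (fun x => ⟪e, x⟫) 1 σ := by
    refine hK.induction_on (p := fun S => ∃ r₀ : ℝ, 0 < r₀ ∧ ∀ x₀ ∈ S,
      ∃ (r : ℝ) (e : E (d + 1)), r₀ ≤ r ∧ r ≤ 1 ∧ ‖e‖ = 1 ∧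
        Trap (sc u x₀ r) (fun x => ⟪e, x⟫) 1 σ) ⟨1, one_pos, fun x hx => hx.elim⟩ ?_ ?_ ?_
    · rintro S T hST ⟨r₀, h0, h1⟩
      exact ⟨r₀, h0, fun x hx => h1 x (hST hx)⟩
    · rintro S T ⟨r₁, h1, h1'⟩ ⟨r₂, h2, h2'⟩
      refine ⟨min r₁ r₂, lt_min h1 h2, ?_⟩
      rintro x (hx | hx)
      · obtain ⟨r, e, a1, a2⟩ := h1' x hx
        exact ⟨r, e, (min_le_left _ _).trans a1, a2⟩
      · obtain ⟨r, e, a1, a2⟩ := h2' x hx
        exact ⟨r, e, (min_le_right _ _).trans a1, a2⟩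
    · intro y hy
      have hy0 : y ≠ 0 := by
        rintro rfl
        have h1 := mem_sphere_zero_iff_norm.1 hy.2
        rw [norm_zero] at h1
        exact zero_ne_one h1
      obtain ⟨r, e, r0, r1, he, hc⟩ := blow_close ih h hh hy0 hy.1 (half_pos hδ)
      refine ⟨ball y (δ / 2 * r / (L + 1)),
        mem_nhdsWithin_of_mem_nhds (ball_mem_nhds _ (by positivity)), r, r0, fun x₀ hx₀ => ?_⟩
      refine ⟨r, e, le_rfl, r1, he, H _ e (h.sc x₀ r0) he fun x hx => ?_⟩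
      have h1 : |sc u x₀ r x - sc u y r x| ≤ δ / 2 := by
        rw [sc, sc, ← sub_div, abs_div, abs_of_pos r0, div_le_iff₀ r0]
        refine (hL _ _).trans ?_
        rw [add_sub_add_right_eq_sub]
        have h2 : ‖x₀ - y‖ * (L + 1) < δ / 2 * r :=
          (lt_div_iff₀ (by positivity)).1 (mem_ball_iff_norm.1 hx₀)
        nlinarith [norm_nonneg (x₀ - y)]
      have h3 := abs_sub_le (sc u x₀ r x) (sc u y r x) (max ⟪e, x⟫ 0)
      linarith [hc x hx]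
  obtain ⟨r₀, h0, h1⟩ := key
  exact ⟨r₀, h0, fun x₀ hx hn => h1 x₀ ⟨hx, mem_sphere_zero_iff_norm.2 hn⟩⟩

end Vale.Agent.P098
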