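import Vale.Agent.P098.K.Lip

/-!
# P098 C/Det  (helper names start with det_)

Change of variables.  `det_est`: `LinearMap.det_toMatrix` in the basis `EuclideanSpace.basisFun`, `Matrix.det_one_add_smul` and a bound by compactness / continuity, or `Matrix.det_apply` and induction on products.
`chg_var`: `Φ = id + t X` with `|t| * Lip X ≤ 1 / 2` is injective and surjective (`ApproximatesLinearOn.surjective`, or `ContractingWith.fixedPoint` for `x ↦ y - t • X x`), the identity for `‖x‖ ≥ R`, so it maps `ball 0 R` onto itself;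
`integral_image_eq_integral_abs_det_fderiv_smul`; null sets: the inverse is `2`-Lipschitz (`addHaar_image_eq_zero_of_differentiableOn_of_addHaar_eq_zero` does not apply; use `lintegral_image_eq_lintegral_abs_det_fderiv_mul` with a measurable null superset and `det ≥ 1 / 2` from `det_est`, or `LipschitzWith.hausdorffMeasure_image_le`).
-/

set_option maxSynthPendingDepth 3

open MeasureTheory Filter Topology Set Metric
open scoped ContDiff RealInnerProductSpace NNReal

noncomputable section

namespace Vale.Agent.P098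

variable {d : ℕ}

theorem det_mat (d : ℕ) (M : ℝ) : ∃ C : ℝ, 0 ≤ C ∧ ∀ (B : Matrix (Fin d) (Fin d) ℝ) (t : ℝ),
    (∀ i j, |B i j| ≤ M) → |t| ≤ 1 → |(1 + t • B).det - 1 - t * B.trace| ≤ C * t ^ 2 := by
  refine ⟨∑ k ∈ Finset.range (d + 1), ∑ s ∈ (Finset.univ : Finset (Fin d)).powersetCard (k + 1 + 1),
    (Fintype.card s).factorial • |M| ^ Fintype.card s, by positivity, fun B t hB ht => ?_⟩
  rw [Matrix.det_one_add_smul]
  generalize hp : (1 + (Polynomial.X : Polynomial ℝ) • B.map Polynomial.C).det = p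
  have hdeg : p.natDegree ≤ d := by
    have h := Polynomial.natDegree_det_X_add_C_le B (1 : Matrix (Fin d) (Fin d) ℝ)
    rw [Matrix.map_one _ (map_zero _) (map_one _), add_comm, hp, Fintype.card_fin] at h
    exact h
  have hdeg2 : p.divX.divX.natDegree < d + 1 :=
    Nat.lt_succ_of_le (le_trans Polynomial.natDegree_divX_le
      (le_trans Polynomial.natDegree_divX_le hdeg))
  have e : 1 + B.trace * t + Polynomial.eval t p.divX.divX * t ^ 2 - 1 - t * B.trace =
      Polynomial.eval t p.divX.divX * t ^ 2 := by ring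
  rw [e, abs_mul, abs_of_nonneg (sq_nonneg t)]
  refine mul_le_mul_of_nonneg_right ?_ (sq_nonneg t)
  rw [Polynomial.eval_eq_sum_range' hdeg2]
  refine le_trans (Finset.abs_sum_le_sum_abs _ _) (Finset.sum_le_sum fun k _ => ?_)
  rw [abs_mul, abs_pow]
  refine le_trans (mul_le_of_le_one_right (abs_nonneg _) (pow_le_one₀ (abs_nonneg _) ht)) ?_
  rw [Polynomial.coeff_divX, Polynomial.coeff_divX, ← hp,
    Matrix.coeff_det_one_add_X_smul_eq_sum_minors]
  refine le_trans (Finset.abs_sum_le_sum_abs _ _) (Finset.sum_le_sum fun s _ => ?_)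
  exact Matrix.det_le (abv := AbsoluteValue.abs) fun i j =>
    le_trans (hB _ _) (le_abs_self M)

theorem det_est (d : ℕ) (M : ℝ) : ∃ C : ℝ, 0 ≤ C ∧ ∀ (A : E d →L[ℝ] E d) (t : ℝ), ‖A‖ ≤ M → |t| ≤ 1 →
    |(ContinuousLinearMap.id ℝ (E d) + t • A).det - 1 - t * ∑ i, A (bv i) i| ≤ C * t ^ 2 := by
  obtain ⟨C, hC0, hC⟩ := det_mat d M
  refine ⟨C, hC0, fun A t hA ht => ?_⟩
  let b := (EuclideanSpace.basisFun (Fin d) ℝ).toBasis
  have hB : ∀ i j, LinearMap.toMatrix b b (A : E d →ₗ[ℝ] E d) i j = A (bv j) i := by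
    intro i j
    rw [LinearMap.toMatrix_apply]
    simp [b, bv]
  have h1 : (ContinuousLinearMap.id ℝ (E d) + t • A).det =
      (1 + t • LinearMap.toMatrix b b (A : E d →ₗ[ℝ] E d)).det := by
    rw [ContinuousLinearMap.det, ← LinearMap.det_toMatrix b, ContinuousLinearMap.coe_add,
      ContinuousLinearMap.coe_smul, map_add, map_smul, ContinuousLinearMap.coe_id,
      LinearMap.toMatrix_id]
  have h2 : ∑ i, A (bv i) i = (LinearMap.toMatrix b b (A : E d →ₗ[ℝ] E d)).trace := by
    simp only [Matrix.trace, Matrix.diag, hB]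
  rw [h1, h2]
  refine hC _ t (fun i j => ?_) ht
  rw [hB]
  have h3 : |A (bv j) i| ≤ ‖A (bv j)‖ := by
    have h4 := PiLp.norm_apply_le (A (bv j)) i
    rwa [Real.norm_eq_abs] at h4
  have h5 := A.le_opNorm (bv j)
  rw [norm_bv, mul_one] at h5
  linarith

theorem chg_var {X : E d → E d} (hX : ContDiff ℝ 1 X) {R : ℝ} (h0 : ∀ x, R ≤ ‖x‖ → X x = 0) :
    ∃ t₀ : ℝ, 0 < t₀ ∧ ∀ t : ℝ, |t| ≤ t₀ →
      (∀ g : E d → ℝ, ∫ y in ball (0 : E d) R, g y = ∫ x in ball (0 : E d) R,
        |(ContinuousLinearMap.id ℝ (E d) + t • fderiv ℝ X x).det| * g (x + t • X x)) ∧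
      ∀ p : E d → Prop, (∀ᵐ y, p y) → ∀ᵐ x, p (x + t • X x) := by
  have hc : HasCompactSupport X := by
    refine HasCompactSupport.intro (isCompact_closedBall (0 : E d) R) fun x hx => h0 x ?_
    rw [mem_closedBall_zero_iff] at hx
    exact (not_le.1 hx).le
  obtain ⟨L, hL⟩ := hX.lipschitzWith_of_hasCompactSupport hc one_ne_zero
  have hL0 : (0 : ℝ) ≤ L := L.2
  refine ⟨1 / (2 * (L + 1)), by positivity, fun t ht => ?_⟩
  have hlip : ∀ x y, ‖t • X x - t • X y‖ ≤ 1 / 2 * ‖x - y‖ := by
    intro x y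
    rw [← smul_sub, norm_smul, Real.norm_eq_abs]
    have h1 : ‖X x - X y‖ ≤ L * ‖x - y‖ := by
      have h2 := hL.dist_le_mul x y
      rwa [dist_eq_norm, dist_eq_norm] at h2
    have h3 : |t| * L ≤ 1 / 2 := by
      rw [le_div_iff₀ (by positivity)] at ht
      nlinarith [abs_nonneg t]
    calc |t| * ‖X x - X y‖ ≤ |t| * (L * ‖x - y‖) := mul_le_mul_of_nonneg_left h1 (abs_nonneg t)
      _ = |t| * L * ‖x - y‖ := by ring
      _ ≤ 1 / 2 * ‖x - y‖ := mul_le_mul_of_nonneg_right h3 (norm_nonneg _)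
  have hanti : AntilipschitzWith 2 fun x => x + t • X x := by
    refine AntilipschitzWith.of_le_mul_dist fun x y => ?_
    rw [dist_eq_norm, dist_eq_norm]
    have h1 : x - y = (x + t • X x - (y + t • X y)) - (t • X x - t • X y) := by abel
    have h2 := norm_sub_le (x + t • X x - (y + t • X y)) (t • X x - t • X y)
    rw [← h1] at h2
    have h3 := hlip x y
    push_cast
    linarith
  have hsurj : ∀ y, ∃ x, x + t • X x = y := by
    intro y
    have hcon : ContractingWith (1 / 2) fun x => y - t • X x := by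
      refine ⟨by norm_num, LipschitzWith.of_dist_le_mul fun a b => ?_⟩
      rw [dist_eq_norm, dist_eq_norm, sub_sub_sub_cancel_left, norm_sub_rev]
      push_cast
      exact hlip a b
    have hfix : y - t • X (hcon.fixedPoint _) = hcon.fixedPoint _ := hcon.fixedPoint_isFixedPt
    exact ⟨hcon.fixedPoint _, (sub_eq_iff_eq_add.1 hfix).symm⟩
  have him : (fun x => x + t • X x) '' ball (0 : E d) R = ball 0 R := by
    ext y
    constructor
    · rintro ⟨x, hx, rfl⟩
      by_contra hn
      rw [mem_ball_zero_iff, not_lt] at hn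
      replace hn : R ≤ ‖x + t • X x‖ := hn
      have h1 : x + t • X x = x := hanti.injective (by
        show x + t • X x + t • X (x + t • X x) = x + t • X x
        rw [h0 _ hn, smul_zero, add_zero])
      rw [h1] at hn
      exact absurd (mem_ball_zero_iff.1 hx) (not_lt.2 hn)
    · intro hy
      obtain ⟨x, hx⟩ := hsurj y
      refine ⟨x, ?_, hx⟩
      by_contra hn
      rw [mem_ball_zero_iff, not_lt] at hn
      rw [h0 _ hn, smul_zero, add_zero] at hx
      rw [hx] at hn
      exact absurd (mem_ball_zero_iff.1 hy) (not_lt.2 hn)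
  refine ⟨fun g => ?_, fun p hp => ?_⟩
  · have hd : ∀ x ∈ ball (0 : E d) R, HasFDerivWithinAt (fun x => x + t • X x)
        (ContinuousLinearMap.id ℝ (E d) + t • fderiv ℝ X x) (ball 0 R) x := fun x _ =>
      ((hasFDerivAt_id x).add
        ((hX.differentiable one_ne_zero x).hasFDerivAt.const_smul t)).hasFDerivWithinAt
    have h1 := integral_image_eq_integral_abs_det_fderiv_smul volume measurableSet_ball hd
      hanti.injective.injOn g
    rw [him] at h1
    exact h1
  · have a1 : (μH[Module.finrank ℝ (E d)] : Measure (E d)) ≪ volume :=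
      Measure.absolutelyContinuous_isAddHaarMeasure _ _
    have a2 : (volume : Measure (E d)) ≪ μH[Module.finrank ℝ (E d)] :=
      Measure.absolutelyContinuous_isAddHaarMeasure _ _
    rw [ae_iff] at hp ⊢
    have h1 := hanti.hausdorffMeasure_preimage_le (d := Module.finrank ℝ (E d))
      (Nat.cast_nonneg _) {y | ¬ p y}
    rw [a1 hp, mul_zero] at h1
    exact a2 (nonpos_iff_eq_zero.1 h1)

end Vale.Agent.P098
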