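import Vale.Agent.P098.C.Lsc

/-!
# P098 C/Lim  (helper names start with lim_)

Compactness.  `unif_of_tendsto`: finite net.  `exists_subseq`: sequential compactness of `Set.pi univ (fun n => Icc ..)` in `ℕ → ℝ` along a dense sequence (`TopologicalSpace.denseSeq`, `isCompact_univ_pi`, `IsCompact.tendsto_subseq`), then Cauchy at every point.
`mn_lim`: for a competitor `v` (`= U` for `‖x‖ ≥ R`, `R > 0`) use `v + (1 - η) (u k - U)`, `η x = max 0 (min 1 ((R + s - ‖x‖) / s))`; it is `v` on `ball 0 R`, a convex combination of `U` and `u k` outside, `u k` for `‖x‖ ≥ R + s`; in the shell it is `3 L + 1`-Lipschitz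
as soon as `|u k - U| ≤ s` on `closedBall 0 (R + s)`; so `0 ≤ ∫_{ball R} (en v - en (u k)) + C * volume shell`, `lsc`, `s → 0` (`Measure.addHaar_ball`, `addHaar_closedBall`, `Measure.addHaar_sphere`).
-/

set_option maxSynthPendingDepth 3

open MeasureTheory Filter Topology Set Metric
open scoped ContDiff RealInnerProductSpace NNReal

noncomputable section

namespace Vale.Agent.P098

variable {d : ℕ}

variable {u : ℕ → E d → ℝ} {U : E d → ℝ} {L : ℝ≥0}

theorem lim_delta (L : ℝ≥0) {ε : ℝ} (hε : 0 < ε) :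
    ∃ δ : ℝ, 0 < δ ∧ ∀ r, r < δ → L * r ≤ ε / 3 := by
  have hL := L.coe_nonneg
  refine ⟨ε / 3 / (L + 1), by positivity, fun r hr => ?_⟩
  refine (mul_le_mul_of_nonneg_left hr.le hL).trans ?_
  rw [← mul_div_assoc, div_le_iff₀ (by positivity)]
  nlinarith

theorem unif_of_tendsto (hL : ∀ k, LipschitzWith L (u k))
    (hU : ∀ x, Tendsto (fun k => u k x) atTop (𝓝 (U x))) (R : ℝ) {ε : ℝ} (hε : 0 < ε) :
    ∀ᶠ k in atTop, ∀ x, ‖x‖ ≤ R → |u k x - U x| ≤ ε := by
  obtain ⟨δ, hδ, h1⟩ := lim_delta L hε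
  obtain ⟨t, -, ht, hc⟩ := finite_cover_balls_of_compact (isCompact_closedBall (0 : E d) R) hδ
  have h2 : ∀ᶠ k in atTop, ∀ y ∈ t, dist (u k y) (U y) < ε / 3 :=
    (eventually_all_finite ht).2 fun y _ => Metric.tendsto_nhds.1 (hU y) _ (by positivity)
  filter_upwards [h2] with k hk x hx
  obtain ⟨y, hy, hxy⟩ := mem_iUnion₂.1 (hc (mem_closedBall_zero_iff.2 hx))
  have k1 := ((hL k).dist_le_mul x y).trans (h1 _ hxy)
  have k2 := ((lipschitzWith_lim hL hU).dist_le_mul x y).trans (h1 _ hxy)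
  have k3 := dist_triangle4 (u k x) (u k y) (U y) (U x)
  rw [dist_comm (U y)] at k3
  rw [← Real.dist_eq]
  linarith [hk y hy]

theorem exists_subseq (hL : ∀ k, LipschitzWith L (u k)) (h0 : ∀ k, u k 0 = 0) :
    ∃ (φ : ℕ → ℕ) (U : E d → ℝ), StrictMono φ ∧
      ∀ x, Tendsto (fun k => u (φ k) x) atTop (𝓝 (U x)) := by
  obtain ⟨a, -, φ, hφ, ha⟩ := (isCompact_univ_pi fun n : ℕ => isCompact_closedBall (0 : ℝ)
    (L * ‖TopologicalSpace.denseSeq (E d) n‖)).tendsto_subseq
    (x := fun k n => u k (TopologicalSpace.denseSeq (E d) n)) fun k n _ => by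
      have := (hL k).dist_le_mul (TopologicalSpace.denseSeq (E d) n) 0
      rwa [h0, dist_zero_right (TopologicalSpace.denseSeq (E d) n)] at this
  have hc : ∀ x, CauchySeq fun k => u (φ k) x := fun x => by
    refine Metric.cauchySeq_iff'.2 fun ε hε => ?_
    obtain ⟨δ, hδ, h1⟩ := lim_delta L hε
    obtain ⟨n, hn⟩ := (TopologicalSpace.denseRange_denseSeq (E d)).exists_dist_lt x hδ
    obtain ⟨N, hN⟩ := Metric.cauchySeq_iff'.1 (tendsto_pi_nhds.1 ha n).cauchySeq (ε / 3)
      (by positivity)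
    refine ⟨N, fun m hm => ?_⟩
    have k1 := ((hL (φ m)).dist_le_mul x _).trans (h1 _ hn)
    have k2 := ((hL (φ N)).dist_le_mul x _).trans (h1 _ hn)
    have k3 := dist_triangle4 (u (φ m) x) (u (φ m) (TopologicalSpace.denseSeq (E d) n))
      (u (φ N) (TopologicalSpace.denseSeq (E d) n)) (u (φ N) x)
    rw [dist_comm (u (φ N) (TopologicalSpace.denseSeq (E d) n))] at k3
    have k4 : dist (u (φ m) (TopologicalSpace.denseSeq (E d) n))
      (u (φ N) (TopologicalSpace.denseSeq (E d) n)) < ε / 3 := hN m hm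
    linarith
  choose U hU using fun x => cauchySeq_tendsto_of_complete (hc x)
  exact ⟨φ, U, hφ, hU⟩

theorem lim_int {f : E d → ℝ} (hf : Lip f) (R : ℝ) : IntegrableOn (en f) (ball 0 R) := by
  obtain ⟨C, hC⟩ := hf.en_bdd
  exact Measure.integrableOn_of_bounded measure_ball_lt_top.ne
    (measurable_en hf.continuous).aestronglyMeasurable (Eventually.of_forall hC)

theorem lim_comp {f v : E d → ℝ} {K : ℝ≥0} {R s : ℝ} (hn : ∀ x, 0 ≤ f x) (hL : LipschitzWith L f)
    (hLU : LipschitzWith L U) (hU : ∀ x, 0 ≤ U x) (hK : LipschitzWith K v) (hv : ∀ x, 0 ≤ v x)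
    (hR : 0 < R) (he : ∀ x, R ≤ ‖x‖ → v x = U x) (hs : s ∈ Ioo (0 : ℝ) 1)
    (hc : ∀ x, ‖x‖ ≤ (L + L + 1) * R + 1 → |f x - U x| ≤ s) :
    ∃ w : E d → ℝ, LipschitzWith (K + (L + L + 1)) w ∧ (∀ x, 0 ≤ w x) ∧
      (∀ x, ‖x‖ < R → w x = v x) ∧ ∀ x, R + s ≤ ‖x‖ → w x = f x := by
  have hL0 := L.coe_nonneg
  obtain ⟨t, t1, t2, t3, t4⟩ : ∃ t : E d → ℝ, LipschitzWith (L + L + 1) t ∧ (∀ x, 0 ≤ t x) ∧
      (∀ x, ‖x‖ < R → t x = 0) ∧ ∀ x, R ≤ ‖x‖ → t x = (L + L + 1) * (‖x‖ - R) := by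
    refine ⟨fun x => (L + L + 1) * max (‖x‖ - R) 0, LipschitzWith.of_dist_le_mul fun x y => ?_,
      fun x => mul_nonneg (by positivity) (le_max_right _ _), fun x hx => ?_, fun x hx => ?_⟩
    · rw [Real.dist_eq, ← mul_sub, abs_mul, abs_of_nonneg (by positivity), dist_eq_norm]
      push_cast
      refine mul_le_mul_of_nonneg_left ((abs_max_sub_max_le_abs _ _ _).trans ?_) (by positivity)
      rw [sub_sub_sub_cancel_right]
      exact abs_norm_sub_norm_le x y
    · beta_reduce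
      rw [max_eq_right (by linarith), mul_zero]
    · beta_reduce
      rw [max_eq_left (by linarith)]
  have l1 : LipschitzWith (L + L + 1) fun x => f x - U x := (hL.sub hLU).weaken le_self_add
  have l2 := t1.neg.max (l1.min t1)
  simp only [max_self] at l2
  refine ⟨fun x => v x + max (-t x) (min (f x - U x) (t x)), hK.add l2, fun x => ?_,
    fun x hx => ?_, fun x hx => ?_⟩
  · beta_reduce
    rcases lt_or_ge ‖x‖ R with hx | hx
    · rw [t3 x hx, neg_zero]
      exact add_nonneg (hv x) (le_max_left _ _)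
    · rw [he x hx]
      refine le_trans ?_ (add_le_add le_rfl (le_max_right _ _))
      rw [← min_add_add_left]
      exact le_min (by linarith [hn x]) (add_nonneg (hU x) (t2 x))
  · beta_reduce
    rw [t3 x hx, neg_zero, max_eq_left (min_le_right _ _), add_zero]
  · have h1 : R ≤ ‖x‖ := by linarith [hs.1]
    have h2 : |f x - U x| ≤ t x := by
      rw [t4 x h1]
      rcases le_total ‖x‖ ((L + L + 1) * R + 1) with h | h
      · exact (hc x h).trans (by nlinarith [hs.1])
      · have k1 := lip_le hL x 0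
        have k2 := lip_le hLU x 0
        have k3 := hc 0 (by rw [norm_zero]; positivity)
        rw [sub_zero, abs_le] at k1 k2
        rw [abs_le] at k3 ⊢
        constructor <;> nlinarith [hs.2]
    beta_reduce
    rw [min_eq_left (abs_le.1 h2).2, max_eq_right (abs_le.1 h2).1, he x h1, add_sub_cancel]

theorem lim_step {f v : E d → ℝ} {K : ℝ≥0} {R s : ℝ} (hm : Mn f) (hL : LipschitzWith L f)
    (hLU : LipschitzWith L U) (hU : ∀ x, 0 ≤ U x) (hK : LipschitzWith K v) (hv : ∀ x, 0 ≤ v x)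
    (hR : 0 < R) (he : ∀ x, R ≤ ‖x‖ → v x = U x) (hs : s ∈ Ioo (0 : ℝ) 1)
    (hc : ∀ x, ‖x‖ ≤ (L + L + 1) * R + 1 → |f x - U x| ≤ s) :
    0 ≤ (∫ x in ball (0 : E d) R, en v x) - (∫ x in ball (0 : E d) R, en f x) +
      ((K + (L + L + 1) : ℝ) ^ 2 + 1) * (((R + s) ^ d - R ^ d) * volume.real (ball (0 : E d) 1)) := by
  obtain ⟨w, w1, w2, w3, w4⟩ := lim_comp hm.nn hL hLU hU hK hv hR he hs hc
  have hb : ∀ x, en w x ≤ (K + (L + L + 1) : ℝ) ^ 2 + 1 := fun x => by
    have h1 : ‖fderiv ℝ w x‖ ≤ (K + (L + L + 1) : ℝ) := by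
      exact_mod_cast norm_fderiv_le_of_lipschitz ℝ w1
    refine add_le_add (pow_le_pow_left₀ (norm_nonneg _) h1 2) ?_
    split_ifs <;> norm_num
  generalize (K + (L + L + 1) : ℝ) ^ 2 + 1 = C at hb
  have hS : MeasurableSet (closedBall (0 : E d) (R + s) \ ball 0 R) :=
    measurableSet_closedBall.diff measurableSet_ball
  have i1 := ((lim_int ⟨K, hK⟩ R).sub (lim_int ⟨L, hL⟩ R)).integrable_indicator measurableSet_ball
  have i2 : Integrable ((closedBall (0 : E d) (R + s) \ ball 0 R).indicator fun _ => C) :=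
    (integrableOn_const (measure_lt_top_of_subset sdiff_subset
      measure_closedBall_lt_top.ne).ne).integrable_indicator hS
  have h1 := (hm.le w ⟨_, w1⟩ w2 ⟨_, w4⟩).trans (integral_mono
    (integrable_en_sub ⟨L, hL⟩ ⟨_, w1⟩ w4) (i1.add i2) fun x => by
      by_cases hx : x ∈ ball (0 : E d) R
      · have e : w =ᶠ[𝓝 x] v := Eventually.mono (isOpen_ball.mem_nhds hx) fun y hy =>
          w3 y (mem_ball_zero_iff.1 hy)
        simp only [Pi.add_apply, indicator_of_mem hx, Pi.sub_apply, en_congr e,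
          indicator_of_notMem (notMem_sdiff_of_mem hx), add_zero, le_refl]
      · by_cases hx' : x ∈ closedBall (0 : E d) (R + s)
        · simp only [Pi.add_apply, indicator_of_notMem hx, zero_add,
            indicator_of_mem (mem_sdiff_of_mem hx' hx)]
          linarith [hb x, en_nonneg f x]
        · simp only [Pi.add_apply, indicator_of_notMem hx, zero_add,
            indicator_of_notMem (mt mem_of_mem_sdiff hx'), sub_self, le_refl,
            en_congr (lip_ev w4 (not_le.1 (mt mem_closedBall_zero_iff.2 hx')))])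
  have hs0 := hs.1
  rw [integral_add' i1 i2, integral_indicator measurableSet_ball, integral_indicator hS,
    integral_sub' (lim_int ⟨K, hK⟩ R) (lim_int ⟨L, hL⟩ R), setIntegral_const, smul_eq_mul,
    measureReal_sdiff (ball_subset_closedBall.trans (closedBall_subset_closedBall (by linarith)))
      measurableSet_ball measure_closedBall_lt_top.ne,
    Measure.addHaar_real_closedBall _ _ (by positivity), measureReal_def volume (ball 0 R),
    Measure.addHaar_ball_of_pos _ _ hR, ENNReal.toReal_mul, ENNReal.toReal_ofReal (by positivity),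
    finrank_euclideanSpace_fin, ← measureReal_def] at h1
  linarith

theorem mn_lim (hm : ∀ k, Mn (u k)) (hL : ∀ k, LipschitzWith L (u k))
    (hU : ∀ x, Tendsto (fun k => u k x) atTop (𝓝 (U x))) : Mn U := by
  have hLU := lipschitzWith_lim hL hU
  have hn : ∀ x, 0 ≤ U x := fun x => ge_of_tendsto' (hU x) fun k => (hm k).nn x
  refine ⟨⟨L, hLU⟩, hn, ?_⟩
  rintro v ⟨K, hK⟩ hv ⟨R₀, hR₀⟩
  obtain ⟨R, hR, h1⟩ : ∃ R : ℝ, 0 < R ∧ R₀ < R :=
    ⟨|R₀| + 1, by positivity, by linarith [le_abs_self R₀]⟩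
  rw [← setIntegral_eq_integral_of_forall_compl_eq_zero (s := ball 0 R) fun x hx => by
    rw [en_congr (lip_ev hR₀ (h1.trans_le (not_lt.1 (mt mem_ball_zero_iff.2 hx)))), sub_self],
    integral_sub (lim_int ⟨K, hK⟩ R) (lim_int ⟨L, hLU⟩ R)]
  have key : ∀ s ∈ Ioo (0 : ℝ) 1, 0 ≤ (∫ x in ball (0 : E d) R, en v x) -
      (∫ x in ball (0 : E d) R, en U x) + s + ((K + (L + L + 1) : ℝ) ^ 2 + 1) *
        (((R + s) ^ d - R ^ d) * volume.real (ball (0 : E d) 1)) := by
    intro s hs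
    obtain ⟨k, k1, k2⟩ := ((unif_of_tendsto hL hU ((L + L + 1) * R + 1) hs.1).and
      (lsc hL hU R hs.1)).exists
    have k3 := lim_step (hm k) (hL k) hLU hn hK hv hR (fun x hx => hR₀ x (h1.le.trans hx)) hs k1
    linarith
  have hc : Continuous fun s : ℝ => (∫ x in ball (0 : E d) R, en v x) -
      (∫ x in ball (0 : E d) R, en U x) + s + ((K + (L + L + 1) : ℝ) ^ 2 + 1) *
        (((R + s) ^ d - R ^ d) * volume.real (ball (0 : E d) 1)) := by fun_prop
  have h2 := ge_of_tendsto ((hc.tendsto 0).mono_left (nhdsWithin_le_nhds (s := Ioi 0)))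
    (Eventually.mono (Ioo_mem_nhdsGT one_pos) key)
  simpa only [add_zero, sub_self, zero_mul, mul_zero] using h2


end Vale.Agent.P098
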