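import Vale.Agent.P098.K.Ibp

/-!
# P098 C/Lsc  (helper names start with lsc_)

Lower semicontinuity.  `weak_zero`: for `F` smooth with compact support use `ibp_mul` and dominated convergence (`|w k x| ≤ |w k 0| + L ‖x‖`); for integrable `F` approximate in `L¹` (`MeasureTheory.Integrable.exists_hasCompactSupport_integral_sub_le`, then
`Continuous.exists_contDiff_approx` / `exists_contDiff_tsupport_subset` / `UniformContinuous.exists_contDiff_dist_le` with a cutoff, or `MemLp.exist_eLpNorm_sub_le`-type density of smooth functions), `|fderiv (w k) x v| ≤ L ‖v‖`.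
`lsc`: `‖p‖ ^ 2 ≥ ‖q‖ ^ 2 + 2 ∑ i, q (bv i) * (p - q) (bv i)` (`norm_add_sq_B1`), `weak_zero` with `F = (ball 0 R).indicator (fderiv U · (bv i))`; `min (1_{U > 0}) (1_{u k > 0}) → 1_{U > 0}` pointwise.
-/

set_option maxSynthPendingDepth 3

open MeasureTheory Filter Topology Set Metric
open scoped ContDiff RealInnerProductSpace NNReal

noncomputable section

namespace Vale.Agent.P098

variable {d : ℕ}

variable {u w : ℕ → E d → ℝ} {U : E d → ℝ} {L : ℝ≥0}

theorem lipschitzWith_lim (hL : ∀ k, LipschitzWith L (u k))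
    (hU : ∀ x, Tendsto (fun k => u k x) atTop (𝓝 (U x))) : LipschitzWith L U :=
  LipschitzWith.of_dist_le_mul fun x y =>
    le_of_tendsto' ((hU x).dist (hU y)) fun k => (hL k).dist_le_mul x y

theorem lsc_smooth (hL : ∀ k, LipschitzWith L (w k))
    (h0 : ∀ x, Tendsto (fun k => w k x) atTop (𝓝 0)) {g : E d → ℝ} (hg : LocallyLipschitz g)
    (hc : HasCompactSupport g) (v : E d) :
    Tendsto (fun k => ∫ x, g x * fderiv ℝ (w k) x v) atTop (𝓝 0) := by
  obtain ⟨R, hR⟩ := exists_radius hc
  have e : ∀ k, ∫ x, g x * fderiv ℝ (w k) x v = -∫ x, w k x * fderiv ℝ g x v := fun k => by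
    rw [← (ibp_mul (hL k).locallyLipschitz hg hR v).2.2]
    simp only [mul_comm]
  simp only [e]
  rw [← neg_zero]
  refine Tendsto.neg ?_
  have hc1 : Continuous fun x : E d => 1 + (L : ℝ) * ‖x‖ := by fun_prop
  have hI : Integrable fun x : E d => (1 + (L : ℝ) * ‖x‖) * fderiv ℝ g x v :=
    ibp_int hc1.measurable (measurable_fderiv_apply_const ℝ g v) (ibp_bd hc1 R) (ibp_dbd hg R v)
      fun x hx => by rw [ibp_zero hR hx]; rfl
  have h := tendsto_integral_filter_of_dominated_convergence (μ := volume) (l := atTop)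
    (F := fun k x => w k x * fderiv ℝ g x v) (f := fun _ => (0 : ℝ)) _
    (.of_forall fun k => ((hL k).continuous.measurable.mul
      (measurable_fderiv_apply_const ℝ g v)).aestronglyMeasurable) ?_ hI.norm
    (.of_forall fun x => by simpa using (h0 x).mul_const (fderiv ℝ g x v))
  · simpa using h
  · have h1 : ∀ᶠ k in atTop, |w k 0| < 1 :=
      (h0 0).abs.eventually (gt_mem_nhds (by simp))
    filter_upwards [h1] with k hk
    refine .of_forall fun x => ?_
    rw [norm_mul, norm_mul]
    refine mul_le_mul_of_nonneg_right ?_ (norm_nonneg _)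
    have h2 := lip_le (hL k) x 0
    rw [sub_zero] at h2
    have h3 := abs_sub_abs_le_abs_sub (w k x) (w k 0)
    rw [Real.norm_eq_abs, Real.norm_eq_abs]
    linarith [le_abs_self (1 + (L : ℝ) * ‖x‖)]

theorem lsc_bd {f : E d → ℝ} (hf : LipschitzWith L f) (x v : E d) :
    ‖fderiv ℝ f x v‖ ≤ L * ‖v‖ :=
  ((fderiv ℝ f x).le_opNorm v).trans
    (mul_le_mul_of_nonneg_right (norm_fderiv_le_of_lipschitz ℝ hf) (norm_nonneg v))

theorem lsc_int {f F : E d → ℝ} (hf : LipschitzWith L f) (hF : Integrable F) (v : E d) :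
    Integrable fun x => F x * fderiv ℝ f x v :=
  hF.mul_bdd (measurable_fderiv_apply_const ℝ f v).aestronglyMeasurable
    (.of_forall fun x => lsc_bd hf x v)

theorem weak_zero (hL : ∀ k, LipschitzWith L (w k)) (h0 : ∀ x, Tendsto (fun k => w k x) atTop (𝓝 0))
    {F : E d → ℝ} (hF : Integrable F) (v : E d) :
    Tendsto (fun k => ∫ x, F x * fderiv ℝ (w k) x v) atTop (𝓝 0) := by
  rw [Metric.tendsto_nhds]
  intro ε hε
  have hC : 0 < (L : ℝ) * ‖v‖ + 1 := by positivity
  have hδ : 0 < ε / 2 / (L * ‖v‖ + 1) := by positivity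
  obtain ⟨g, g1, g2, g3⟩ := (memLp_one_iff_integrable.2 hF).exist_eLpNorm_sub_le
    ENNReal.one_ne_top le_rfl hδ
  have gi : Integrable g := g2.continuous.integrable_of_hasCompactSupport g1
  have g4 : ∫ x, ‖F x - g x‖ ≤ ε / 2 / (L * ‖v‖ + 1) := by
    rw [eLpNorm_one_eq_lintegral_enorm, ← ofReal_integral_norm_eq_lintegral_enorm (hF.sub gi),
      ENNReal.ofReal_le_ofReal_iff hδ.le] at g3
    exact g3
  have h := Metric.tendsto_nhds.1 (lsc_smooth hL h0 (g2.of_le (by simp)).locallyLipschitz g1 v)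
    _ (half_pos hε)
  filter_upwards [h] with k hk
  rw [dist_zero_right] at hk ⊢
  have e : ∫ x, F x * fderiv ℝ (w k) x v =
      (∫ x, (F x - g x) * fderiv ℝ (w k) x v) + ∫ x, g x * fderiv ℝ (w k) x v := by
    rw [← integral_add (lsc_int (F := fun x => F x - g x) (hL k) (hF.sub gi) v)
      (lsc_int (hL k) gi v)]
    exact integral_congr_ae (.of_forall fun x => by ring)
  have h1 : ‖∫ x, (F x - g x) * fderiv ℝ (w k) x v‖ ≤ ∫ x, ‖F x - g x‖ * (L * ‖v‖ + 1) :=
    norm_integral_le_of_norm_le ((hF.sub gi).norm.mul_const _) (.of_forall fun x => by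
      rw [norm_mul]
      exact mul_le_mul_of_nonneg_left ((lsc_bd (hL k) x v).trans (le_add_of_nonneg_right
        zero_le_one)) (norm_nonneg _))
  rw [integral_mul_const] at h1
  have h2 := (le_div_iff₀ hC).1 g4
  rw [e]
  linarith [norm_add_le (∫ x, (F x - g x) * fderiv ℝ (w k) x v) (∫ x, g x * fderiv ℝ (w k) x v)]

theorem lsc_on {f : E d → ℝ} (hf : Measurable f) {C : ℝ} (h : ∀ x, ‖f x‖ ≤ C) (R : ℝ) :
    IntegrableOn f (ball (0 : E d) R) :=
  Measure.integrableOn_of_bounded measure_ball_lt_top.ne hf.aestronglyMeasurable (.of_forall h)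

theorem lsc (hL : ∀ k, LipschitzWith L (u k)) (hU : ∀ x, Tendsto (fun k => u k x) atTop (𝓝 (U x)))
    (R : ℝ) {ε : ℝ} (hε : 0 < ε) :
    ∀ᶠ k in atTop, ∫ x in ball (0 : E d) R, en U x ≤ (∫ x in ball (0 : E d) R, en (u k) x) + ε := by
  have hUL := lipschitzWith_lim hL hU
  have hw : ∀ k, LipschitzWith (L + L) fun x => u k x - U x := fun k => (hL k).sub hUL
  have hw0 : ∀ x, Tendsto (fun k => u k x - U x) atTop (𝓝 0) := fun x => by
    simpa using (hU x).sub_const (U x)
  have hF : ∀ i, IntegrableOn (fun x => fderiv ℝ U x (bv i)) (ball (0 : E d) R) := fun i =>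
    lsc_on (measurable_fderiv_apply_const ℝ U _) (fun x => lsc_bd hUL x _) R
  have hP : ∀ k i, IntegrableOn
      (fun x => fderiv ℝ U x (bv i) * fderiv ℝ (fun x => u k x - U x) x (bv i))
      (ball (0 : E d) R) := fun k i =>
    (hF i).mul_bdd (measurable_fderiv_apply_const ℝ _ _).aestronglyMeasurable
      (.of_forall fun x => lsc_bd (hw k) x _)
  have t1 : ∀ i, Tendsto (fun k => ∫ x in ball (0 : E d) R,
      fderiv ℝ U x (bv i) * fderiv ℝ (fun x => u k x - U x) x (bv i)) atTop (𝓝 0) := fun i => by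
    refine (weak_zero hw hw0 ((hF i).integrable_indicator measurableSet_ball) (bv i)).congr
      fun k => ?_
    rw [← integral_indicator measurableSet_ball]
    refine integral_congr_ae (.of_forall fun x => ?_)
    by_cases hx : x ∈ ball (0 : E d) R
    · simp only [indicator_of_mem hx]
    · simp only [indicator_of_notMem hx, zero_mul]
  have t2 := (tendsto_finsetSum Finset.univ fun i _ => t1 i).const_mul 2
  obtain ⟨C, hC⟩ := Lip.en_bdd ⟨L, hUL⟩
  set G : ℕ → E d → ℝ := fun k x => min (en U x) (‖fderiv ℝ U x‖ ^ 2 + if 0 < u k x then 1 else 0)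
    with hG
  have Gm : ∀ k, Measurable (G k) := fun k => (measurable_en hUL.continuous).min
    (((measurable_fderiv ℝ U).norm.pow_const 2).add (Measurable.ite
      (measurableSet_lt measurable_const (hL k).continuous.measurable) measurable_const
      measurable_const))
  have Gb : ∀ k x, ‖G k x‖ ≤ C := fun k x => by
    have h1 : 0 ≤ G k x := le_min (en_nonneg U x) (by split_ifs <;> positivity)
    rw [Real.norm_eq_abs, abs_of_nonneg h1]
    exact (min_le_left _ _).trans ((le_abs_self _).trans (hC x))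
  have t3 : Tendsto (fun k => ∫ x in ball (0 : E d) R, G k x) atTop
      (𝓝 (∫ x in ball (0 : E d) R, en U x)) := by
    refine tendsto_integral_of_dominated_convergence (fun _ => C)
      (fun k => (Gm k).aestronglyMeasurable) (integrableOn_const measure_ball_lt_top.ne)
      (fun k => .of_forall (Gb k)) (.of_forall fun x => tendsto_const_nhds.congr' ?_)
    by_cases hx : 0 < U x
    · filter_upwards [(hU x).eventually (lt_mem_nhds hx)] with k hk
      simp only [hG, en, if_pos hx, if_pos hk, min_self]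
    · refine .of_forall fun k => (min_eq_left ?_).symm
      simp only [en, if_neg hx]
      split_ifs <;> linarith
  have t4 := t3.add t2
  simp only [Finset.sum_const_zero, mul_zero, add_zero] at t4
  filter_upwards [t4.eventually (lt_mem_nhds (sub_lt_self _ hε))] with k hk
  obtain ⟨B, hB⟩ := Lip.en_bdd ⟨L, hL k⟩
  rw [← integral_finsetSum _ fun i _ => hP k i, ← integral_const_mul, ← integral_add
    (lsc_on (Gm k) (Gb k) R) ((integrable_finsetSum _ fun i _ => hP k i).const_mul 2)] at hk
  have h := integral_mono_ae ((lsc_on (Gm k) (Gb k) R).add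
    ((integrable_finsetSum Finset.univ fun i _ => hP k i).const_mul 2))
    (lsc_on (measurable_en (hL k).continuous) hB R) (ae_restrict_of_ae ?_)
  · simp only [Pi.add_apply] at h
    linarith
  · filter_upwards [hUL.ae_differentiableAt, (hL k).ae_differentiableAt] with x h1 h2
    have h3 := norm_add_sq_B1 (fderiv ℝ U x) (fderiv ℝ (u k) x - fderiv ℝ U x)
    rw [add_sub_cancel] at h3
    simp only [Pi.add_apply, fderiv_fun_sub h2 h1]
    have h4 : G k x ≤ _ := min_le_right _ _
    unfold en
    linarith [sq_nonneg ‖fderiv ℝ (u k) x - fderiv ℝ U x‖]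

end Vale.Agent.P098
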