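import Vale.Agent.P098.K.Lip

/-!
# P098 C/Prj  (helper names start with prj_)

Splitting off the first coordinate.  `Fin.sum_univ_succ`, `EuclideanSpace.norm_eq`; `integral_cyl`: `EuclideanSpace.volume_preserving_symm_measurableEquiv_toLp` / `PiLp.volume_preserving_toLp`, `volume_preserving_piFinSuccAbove _ 0`, `integral_prod_mul`.
`en_prj`: if `V` is differentiable at `prj x` use the chain rule and `sum_sq_bv`; otherwise `V ∘ prj` is not differentiable at `x` (compose with `y ↦ x 0 • bv 0 + ins y`).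
-/

set_option maxSynthPendingDepth 3

open MeasureTheory Filter Topology Set Metric
open scoped ContDiff RealInnerProductSpace NNReal

noncomputable section

namespace Vale.Agent.P098

variable {d : ℕ}

/-- Forget the first coordinate. -/
def prj (x : E (d + 1)) : E d := WithLp.toLp 2 fun i => x i.succ
/-- Insert the first coordinate zero. -/
def ins (y : E d) : E (d + 1) := WithLp.toLp 2 (Fin.cons 0 fun i => y i)

theorem exists_prjL (d : ℕ) : ∃ A : E (d + 1) →L[ℝ] E d, ∀ x, A x = prj x :=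
  ⟨LinearMap.toContinuousLinearMap ⟨⟨prj, fun _ _ => rfl⟩, fun _ _ => rfl⟩, fun _ => rfl⟩
theorem exists_insL (d : ℕ) : ∃ A : E d →L[ℝ] E (d + 1), ∀ y, A y = ins y := by
  refine ⟨LinearMap.toContinuousLinearMap ⟨⟨ins, fun x y => ?_⟩, fun c x => ?_⟩, fun _ => rfl⟩ <;>
  · ext i
    cases i using Fin.cases <;> simp [ins]
theorem prj_ins (y : E d) : prj (ins y) = y := rfl
theorem ins_prj (x : E (d + 1)) : ins (prj x) + x 0 • bv 0 = x := by
  ext i
  cases i using Fin.cases <;> simp [ins, prj, bv]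
theorem norm_ins (y : E d) : ‖ins y‖ = ‖y‖ := by
  simp [EuclideanSpace.norm_eq, Fin.sum_univ_succ, ins]
theorem norm_sq_prj (x : E (d + 1)) : ‖x‖ ^ 2 = x 0 ^ 2 + ‖prj x‖ ^ 2 := by
  simp [EuclideanSpace.norm_sq_eq, Fin.sum_univ_succ, prj]
theorem norm_prj_le (x : E (d + 1)) : ‖prj x‖ ≤ ‖x‖ :=
  le_of_sq_le_sq (norm_sq_prj x ▸ le_add_of_nonneg_left (sq_nonneg _)) (norm_nonneg _)
theorem inner_ins (e : E d) (x : E (d + 1)) : ⟪ins e, x⟫ = ⟪e, prj x⟫ := by
  simp [PiLp.inner_apply, Fin.sum_univ_succ, ins, prj]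
theorem ins_smul (c : ℝ) (y : E d) : ins (c • y) = c • ins y := by
  ext i
  cases i using Fin.cases <;> simp [ins]
theorem en_prj (V : E d → ℝ) (x : E (d + 1)) : en (fun x => V (prj x)) x = en V (prj x) := by
  obtain ⟨A, hA⟩ := exists_prjL d
  obtain ⟨B, hB⟩ := exists_insL d
  have dA : HasFDerivAt prj A x := funext hA ▸ A.hasFDerivAt
  unfold en
  congr 1
  by_cases h : DifferentiableAt ℝ V (prj x)
  · have h0 : prj (bv 0 : E (d + 1)) = 0 := by
      ext i
      simp [prj, bv]
    have h1 : ∀ i : Fin d, prj (bv i.succ) = bv i := fun i => by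
      ext j
      simp [prj, bv, PiLp.single_apply]
    rw [fderiv_fun_comp x h dA.differentiableAt, dA.fderiv, ← sum_sq_bv, ← sum_sq_bv, Fin.sum_univ_succ]
    simp [hA, h0, h1]
  · rw [fderiv_zero_of_not_differentiableAt h, fderiv_zero_of_not_differentiableAt fun h1 => h ?_,
      norm_zero, norm_zero]
    have h2 := DifferentiableAt.comp (f := fun y => B y + x 0 • bv 0) (prj x)
      (by rwa [hB, ins_prj]) (B.differentiableAt.add_const _)
    refine h2.congr_of_eventuallyEq (Eventually.of_forall fun y => congrArg V ?_)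
    ext i
    simp [hB, prj, ins, bv]
/-- The splitting as a measurable equivalence. -/
def prj_e (d : ℕ) : E (d + 1) ≃ᵐ ℝ × E d :=
  (MeasurableEquiv.toLp 2 _).symm.trans ((MeasurableEquiv.piFinSuccAbove (fun _ => ℝ) 0).trans
    ((MeasurableEquiv.refl ℝ).prodCongr (MeasurableEquiv.toLp 2 _)))
theorem prj_mp (d : ℕ) : MeasurePreserving (prj_e d) volume (volume.prod volume) ∧
    ∀ x, prj_e d x = (x 0, prj x) :=
  ⟨((MeasurePreserving.id volume).prod (PiLp.volume_preserving_toLp _)).comp
    ((volume_preserving_piFinSuccAbove (fun _ => ℝ) 0).comp (PiLp.volume_preserving_ofLp _)),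
    fun _ => rfl⟩
theorem integrable_cyl {f : ℝ → ℝ} {g : E d → ℝ} (hf : Integrable f) (hg : Integrable g) :
    Integrable fun x : E (d + 1) => f (x 0) * g (prj x) :=
  ((prj_mp d).1.integrable_comp_emb (prj_e d).measurableEmbedding).2 (hf.mul_prod hg) |>.congr
    (Eventually.of_forall fun x => by simp [(prj_mp d).2])
theorem integral_cyl (f : ℝ → ℝ) (g : E d → ℝ) :
    ∫ x : E (d + 1), f (x 0) * g (prj x) = (∫ t, f t) * ∫ y, g y := by
  rw [← integral_prod_mul, ← (prj_mp d).1.integral_comp']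
  simp only [(prj_mp d).2]

end Vale.Agent.P098
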