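import Vale.Agent.P098.C.Det

/-!
# P098 C/Stat  (helper names start with stat_)

Inner variations.  Competitor `v = u ∘ Φ`, `Φ x = x + t • X x`.  With `p = fderiv u (Φ x)`, `A = fderiv X x`: a.e. `fderiv v x = p ∘ (id + t A)`, `‖fderiv v x‖ ^ 2 ≤ ‖p‖ ^ 2 + 2 t p (A (gradient u (Φ x))) + C t ^ 2` (`norm_add_sq_B1`).
`chg_var` with `g = en u`: `∫_B en u = ∫_B det * en u (Φ x)`.  So `0 ≤ t ∫_B G x (Φ x) + C t ^ 2`, `G x y = 2 fderiv u y (fderiv X x (gradient u y)) - en u y * ∑ i, fderiv X x (bv i) i`.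
`|G x (Φ x) - det * G (Φ x) (Φ x)| ≤ C |t|` (`fderiv X` is Lipschitz and bounded) and `chg_var` with `g y = G y y`.  Both signs of `t`, `t → 0`.
-/

set_option maxSynthPendingDepth 3

open MeasureTheory Filter Topology Set Metric
open scoped ContDiff RealInnerProductSpace NNReal

noncomputable section

namespace Vale.Agent.P098

variable {d : ℕ}

theorem stat_num {e a a' τ τ' b D t N : ℝ} (ht : |t| ≤ 1) (he : |e| ≤ N)
    (hh : |e * τ' - 2 * a'| ≤ N) (hτ : |τ| ≤ N) (hb : b ≤ N) (h1 : |τ - τ'| ≤ N * |t|)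
    (h2 : |a - a'| ≤ N * |t|) (h3 : |D - 1 - t * τ| ≤ N * t ^ 2) :
    e + 2 * t * a + t ^ 2 * b ≤ D * (e - t * (e * τ' - 2 * a')) + (4 * N ^ 2 + 3 * N) * t ^ 2 := by
  have hN : 0 ≤ N := (abs_nonneg e).trans he
  have h0 : 0 ≤ |t| := abs_nonneg t
  have e0 : t ^ 2 = |t| * |t| := by rw [abs_mul_abs_self, sq]
  have k1 : |t * (e * (τ - τ'))| ≤ N ^ 2 * t ^ 2 := by
    rw [abs_mul, abs_mul, e0]
    calc |t| * (|e| * |τ - τ'|) ≤ |t| * (N * (N * |t|)) := by gcongr
      _ = _ := by ring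
  have k2 : |t * (a - a')| ≤ N * t ^ 2 := by
    rw [abs_mul, e0]
    calc |t| * |a - a'| ≤ |t| * (N * |t|) := by gcongr
      _ = _ := by ring
  have k3 : |t ^ 2 * (τ * (e * τ' - 2 * a'))| ≤ N ^ 2 * t ^ 2 := by
    rw [abs_mul, abs_mul, abs_of_nonneg (sq_nonneg t)]
    calc t ^ 2 * (|τ| * |e * τ' - 2 * a'|) ≤ t ^ 2 * (N * N) := by gcongr
      _ = _ := by ring
  have k4 : |(D - 1 - t * τ) * (e - t * (e * τ' - 2 * a'))| ≤ 2 * N ^ 2 * t ^ 2 := by
    have k5 : |e - t * (e * τ' - 2 * a')| ≤ 2 * N := by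
      refine (abs_sub _ _).trans ?_
      rw [abs_mul]
      have : |t| * |e * τ' - 2 * a'| ≤ 1 * N := by gcongr
      linarith
    rw [abs_mul]
    calc _ ≤ N * t ^ 2 * (2 * N) := by gcongr
      _ = _ := by ring
  have k6 : t ^ 2 * b ≤ t ^ 2 * N := by gcongr
  linarith [(abs_le.1 k1).1, (abs_le.1 k2).2, (abs_le.1 k3).2, (abs_le.1 k4).1]

/-- The trace. -/
def stat_tr (A : E d →L[ℝ] E d) : ℝ := ∑ i, A (bv i) i

/-- The quadratic term. -/
def stat_q (p : B1 d) (A : E d →L[ℝ] E d) : ℝ := p (A (alg_v p))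

theorem stat_tr_le (A : E d →L[ℝ] E d) : |stat_tr A| ≤ d * ‖A‖ := by
  refine (Finset.abs_sum_le_sum_abs _ _).trans ?_
  have := Finset.sum_le_card_nsmul Finset.univ (fun i => |A (bv i) i|) ‖A‖ fun i _ => by
    have h1 := A.le_opNorm (bv i)
    rw [norm_bv, mul_one] at h1
    exact (PiLp.norm_apply_le (A (bv i)) i).trans h1
  simpa using this

theorem stat_tr_sub (A A' : E d →L[ℝ] E d) : stat_tr A - stat_tr A' = stat_tr (A - A') := by
  simp only [stat_tr, sub_apply, PiLp.sub_apply, Finset.sum_sub_distrib]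

theorem stat_q_le (p : B1 d) (A : E d →L[ℝ] E d) : |stat_q p A| ≤ ‖p‖ ^ 2 * ‖A‖ := by
  have h1 := A.le_opNorm (alg_v p)
  rw [alg_norm] at h1
  calc |stat_q p A| ≤ ‖p‖ * ‖A (alg_v p)‖ := p.le_opNorm _
    _ ≤ ‖p‖ * (‖A‖ * ‖p‖) := by gcongr
    _ = _ := by ring

theorem stat_q_sub (p : B1 d) (A A' : E d →L[ℝ] E d) :
    stat_q p A - stat_q p A' = stat_q p (A - A') := by
  simp only [stat_q, sub_apply, map_sub]

theorem stat_sq (p : B1 d) (A : E d →L[ℝ] E d) (t : ℝ) :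
    ‖p.comp (ContinuousLinearMap.id ℝ (E d) + t • A)‖ ^ 2 =
      ‖p‖ ^ 2 + 2 * t * stat_q p A + t ^ 2 * ‖p.comp A‖ ^ 2 := by
  have e1 : p.comp (ContinuousLinearMap.id ℝ (E d) + t • A) = p + t • p.comp A := by
    ext v
    simp
  have e2 : ∑ i, p (bv i) * (t • p.comp A) (bv i) = t * stat_q p A := by
    rw [alg_sum, real_inner_comm, alg_inner]
    rfl
  rw [e1, norm_add_sq_B1, e2, norm_smul, mul_pow, Real.norm_eq_abs, sq_abs]
  ring

/-- The integrand. -/
def stat_H (u : E d → ℝ) (X : E d → E d) (x : E d) : ℝ :=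
  en u x * stat_tr (fderiv ℝ X x) - 2 * stat_q (fderiv ℝ u x) (fderiv ℝ X x)

theorem stat_H_meas {u : E d → ℝ} (hu : Continuous u) (X : E d → E d) :
    Measurable (stat_H u X) := by
  have c1 : Continuous (stat_tr : (E d →L[ℝ] E d) → ℝ) := by
    unfold stat_tr
    fun_prop
  have c2 : Continuous fun w : B1 d × (E d →L[ℝ] E d) => stat_q w.1 w.2 :=
    continuous_fst.clm_apply (continuous_snd.clm_apply
      ((InnerProductSpace.toDual ℝ (E d)).symm.continuous.comp continuous_fst))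
  exact ((measurable_en hu).mul (c1.measurable.comp (measurable_fderiv ℝ X))).sub
    ((c2.measurable.comp ((measurable_fderiv ℝ u).prodMk (measurable_fderiv ℝ X))).const_mul 2)

theorem stat_consts {u : E d → ℝ} (hu : Lip u) {X : E d → E d} (hX : ContDiff ℝ 2 X)
    (hc : HasCompactSupport X) : ∃ N : ℝ, 1 ≤ N ∧ (∀ y, |en u y| ≤ N) ∧ (∀ y, |stat_H u X y| ≤ N) ∧
      (∀ x, |stat_tr (fderiv ℝ X x)| ≤ N) ∧ (∀ x y, ‖(fderiv ℝ u y).comp (fderiv ℝ X x)‖ ^ 2 ≤ N) ∧
      (∀ x (t : ℝ), |stat_tr (fderiv ℝ X x) - stat_tr (fderiv ℝ X (x + t • X x))| ≤ N * |t|) ∧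
      (∀ x y (t : ℝ), |stat_q (fderiv ℝ u y) (fderiv ℝ X x) -
        stat_q (fderiv ℝ u y) (fderiv ℝ X (x + t • X x))| ≤ N * |t|) ∧
      ∀ x (t : ℝ), |t| ≤ 1 → |(ContinuousLinearMap.id ℝ (E d) + t • fderiv ℝ X x).det - 1 -
        t * stat_tr (fderiv ℝ X x)| ≤ N * t ^ 2 := by
  obtain ⟨L, hL, h1, -⟩ := hu.bdd
  obtain ⟨e, he⟩ := hu.en_bdd
  have hd : ContDiff ℝ 1 (fderiv ℝ X) := hX.fderiv_right (by norm_num)
  obtain ⟨M, hM⟩ := (hc.fderiv ℝ).exists_bound_of_continuous hd.continuous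
  obtain ⟨M₀, hM₀⟩ := hc.exists_bound_of_continuous hX.continuous
  obtain ⟨K, hK⟩ := ContDiff.lipschitzWith_of_hasCompactSupport (hc.fderiv ℝ) hd one_ne_zero
  obtain ⟨C, hC, h2⟩ := det_est d M
  have e0 : 0 ≤ e := (abs_nonneg _).trans (he 0)
  have M0 : 0 ≤ M := (norm_nonneg _).trans (hM 0)
  have M1 : 0 ≤ M₀ := (norm_nonneg _).trans (hM₀ 0)
  have K0 : (0 : ℝ) ≤ K := K.coe_nonneg
  have t1 : ∀ x, |stat_tr (fderiv ℝ X x)| ≤ d * M := fun x =>
    (stat_tr_le _).trans (mul_le_mul_of_nonneg_left (hM x) (Nat.cast_nonneg d))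
  have t2 : ∀ x (t : ℝ), ‖fderiv ℝ X x - fderiv ℝ X (x + t • X x)‖ ≤ K * M₀ * |t| := by
    intro x t
    have := hK.dist_le_mul x (x + t • X x)
    rw [dist_eq_norm, dist_self_add_right, norm_smul, Real.norm_eq_abs] at this
    calc _ ≤ K * (|t| * ‖X x‖) := this
      _ ≤ K * (|t| * M₀) := by gcongr; exact hM₀ x
      _ = _ := by ring
  have t3 : ∀ y, ‖fderiv ℝ u y‖ ^ 2 ≤ L ^ 2 := fun y => pow_le_pow_left₀ (norm_nonneg _) (h1 y) 2
  obtain ⟨N, n0, n1, n2, n3, n4, n5, n6, n7⟩ : ∃ N : ℝ, 1 ≤ N ∧ e ≤ N ∧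
      e * (d * M) + 2 * (L ^ 2 * M) ≤ N ∧ d * M ≤ N ∧ (L * M) ^ 2 ≤ N ∧ d * (K * M₀) ≤ N ∧
      L ^ 2 * (K * M₀) ≤ N ∧ C ≤ N := by
    have a1 : 0 ≤ e * (d * M) + 2 * (L ^ 2 * M) := by positivity
    have a2 : 0 ≤ d * M := by positivity
    have a3 : 0 ≤ (L * M) ^ 2 := by positivity
    have a4 : 0 ≤ d * (K * M₀) := by positivity
    have a5 : 0 ≤ L ^ 2 * (K * M₀) := by positivity
    exact ⟨1 + e + (e * (d * M) + 2 * (L ^ 2 * M)) + d * M + (L * M) ^ 2 + d * (K * M₀) +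
      L ^ 2 * (K * M₀) + C, by linarith, by linarith, by linarith, by linarith, by linarith,
      by linarith, by linarith, by linarith⟩
  refine ⟨N, n0, fun y => (he y).trans n1, fun y => ?_, fun x => (t1 x).trans n3, fun x y => ?_,
    fun x t => ?_, fun x y t => ?_, fun x t ht => ?_⟩
  · refine (abs_sub _ _).trans (le_trans (add_le_add ?_ ?_) n2)
    · rw [abs_mul]
      exact mul_le_mul (he y) (t1 y) (abs_nonneg _) e0
    · rw [abs_mul, abs_two]
      exact mul_le_mul_of_nonneg_left ((stat_q_le _ _).trans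
        (mul_le_mul (t3 y) (hM y) (norm_nonneg _) (sq_nonneg _))) zero_le_two
  · refine le_trans (pow_le_pow_left₀ (norm_nonneg _) ?_ 2) n4
    exact (ContinuousLinearMap.opNorm_comp_le _ _).trans
      (mul_le_mul (h1 y) (hM x) (norm_nonneg _) hL)
  · rw [stat_tr_sub]
    calc _ ≤ _ := stat_tr_le _
      _ ≤ d * (K * M₀ * |t|) := mul_le_mul_of_nonneg_left (t2 x t) (Nat.cast_nonneg d)
      _ = d * (K * M₀) * |t| := by ring
      _ ≤ N * |t| := mul_le_mul_of_nonneg_right n5 (abs_nonneg t)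
  · rw [stat_q_sub]
    calc _ ≤ _ := stat_q_le _ _
      _ ≤ L ^ 2 * (K * M₀ * |t|) := mul_le_mul (t3 y) (t2 x t) (norm_nonneg _) (sq_nonneg _)
      _ = L ^ 2 * (K * M₀) * |t| := by ring
      _ ≤ N * |t| := mul_le_mul_of_nonneg_right n6 (abs_nonneg t)
  · exact (h2 _ t (hM x) ht).trans (mul_le_mul_of_nonneg_right n7 (sq_nonneg t))

theorem stat_zero {I C t₀ : ℝ} (h0 : 0 < t₀) (h : ∀ t : ℝ, |t| ≤ t₀ → t * I ≤ C * t ^ 2) :
    I = 0 := by
  have h1 : ∀ t : ℝ, 0 < t → t ≤ t₀ → |I| ≤ C * t := by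
    intro t ht ht0
    have a1 := h t (by rwa [abs_of_pos ht])
    have a2 := h (-t) (by rwa [abs_neg, abs_of_pos ht])
    refine abs_le.2 ⟨?_, ?_⟩
    · refine le_of_mul_le_mul_left ?_ ht
      linarith
    · refine le_of_mul_le_mul_left ?_ ht
      linarith
  have h2 : Tendsto (fun t : ℝ => C * t) (𝓝[>] 0) (𝓝 0) := by
    have : Tendsto (fun r : ℝ => C * r) (𝓝 0) (𝓝 (C * 0)) := (continuous_const_mul C).tendsto 0
    rw [mul_zero] at this
    exact this.mono_left nhdsWithin_le_nhds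
  refine abs_nonpos_iff.1 (ge_of_tendsto h2 ?_)
  filter_upwards [Ioc_mem_nhdsGT h0] with t ht using h1 t ht.1 ht.2

theorem stat_int {f : E d → ℝ} (hf : Measurable f) {C : ℝ} (h : ∀ x, |f x| ≤ C) (R : ℝ) :
    IntegrableOn f (ball (0 : E d) R) :=
  Measure.integrableOn_of_bounded measure_ball_lt_top.ne hf.aestronglyMeasurable
    (Eventually.of_forall h)

theorem stat_out {R : ℝ} (hR : 0 < R) {f : E d → ℝ} (h : ∀ x, R < ‖x‖ → f x = 0) :
    ∫ x in ball (0 : E d) R, f x = ∫ x, f x := by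
  refine setIntegral_eq_integral_of_ae_compl_eq_zero ?_
  filter_upwards [compl_mem_ae_iff.2 (Measure.addHaar_sphere_of_ne_zero volume (0 : E d) hR.ne')]
    with x hx hx'
  rw [mem_ball_zero_iff, not_lt] at hx'
  refine h x (lt_of_le_of_ne hx' fun e => hx ?_)
  exact mem_sphere_zero_iff_norm.2 e.symm

theorem stat_main {u : E d → ℝ} (h : Mn u) {X : E d → E d} (hX : ContDiff ℝ 2 X) {R : ℝ}
    (hR : 0 < R) (h0 : ∀ x, R ≤ ‖x‖ → X x = 0) : ∫ x in ball (0 : E d) R, stat_H u X x = 0 := by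
  have hc : HasCompactSupport X :=
    HasCompactSupport.intro (isCompact_closedBall (0 : E d) R) fun x hx => h0 x
      (le_of_lt (by simpa using hx))
  have hX1 : ContDiff ℝ 1 X := hX.of_le (by norm_num)
  obtain ⟨N, n0, n1, n2, n3, n4, n5, n6, n7⟩ := stat_consts h.lip hX hc
  obtain ⟨t₀, ht₀, hcv⟩ := chg_var hX1 h0
  obtain ⟨K, hK⟩ := ContDiff.lipschitzWith_of_hasCompactSupport hc hX1 one_ne_zero
  have hu := h.lip.continuous
  have N0 : 0 < N := by linarith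
  refine stat_zero (C := (4 * N ^ 2 + 3 * N) * (volume (ball (0 : E d) R)).toReal)
    (lt_min ht₀ (inv_pos.2 N0)) fun t ht => ?_
  have ht1 : |t| * N ≤ 1 := by
    rw [← le_div_iff₀ N0, one_div]
    exact ht.trans (min_le_right _ _)
  have ht2 : |t| ≤ 1 := by nlinarith [abs_nonneg t]
  obtain ⟨c1, c2⟩ := hcv t (ht.trans (min_le_left _ _))
  have hΦ : Continuous fun x => x + t • X x := continuous_id.add (hX.continuous.const_smul t)
  have hv : Lip fun x => u (x + t • X x) := by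
    obtain ⟨L, hL⟩ := h.lip
    exact ⟨_, hL.comp (LipschitzWith.id.add ((lipschitzWith_smul t).comp hK))⟩
  have hvu : ∀ x, R ≤ ‖x‖ → u (x + t • X x) = u x := fun x hx => by
    rw [h0 x hx, smul_zero, add_zero]
  have i0 := h.le _ hv (fun x => h.nn _) ⟨R, hvu⟩
  obtain ⟨e, he⟩ := hv.en_bdd
  have i1 := stat_int (measurable_en hv.continuous) he R
  have i2 := stat_int (measurable_en hu) n1 R
  have i3 := stat_int (stat_H_meas hu X) n2 R
  rw [← stat_out hR (fun x hx => by rw [en_congr (lip_ev hvu hx), sub_self]),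
    integral_sub i1 i2] at i0
  have hD : ∀ x, |(|(ContinuousLinearMap.id ℝ (E d) + t • fderiv ℝ X x).det|) - 1 -
      t * stat_tr (fderiv ℝ X x)| ≤ N * t ^ 2 := by
    intro x
    have a1 : |t * stat_tr (fderiv ℝ X x)| ≤ 1 := by
      rw [abs_mul]
      exact (mul_le_mul_of_nonneg_left (n3 x) (abs_nonneg t)).trans ht1
    have a2 := abs_abs_sub_abs_le_abs_sub (ContinuousLinearMap.id ℝ (E d) + t • fderiv ℝ X x).det
      (1 + t * stat_tr (fderiv ℝ X x))
    rw [abs_of_nonneg (show 0 ≤ 1 + t * stat_tr (fderiv ℝ X x) by linarith [(abs_le.1 a1).1]),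
      ← sub_sub, ← sub_sub] at a2
    exact a2.trans (n7 x t ht2)
  have i4 : IntegrableOn (fun x => |(ContinuousLinearMap.id ℝ (E d) + t • fderiv ℝ X x).det| *
      (en u (x + t • X x) - t * stat_H u X (x + t • X x))) (ball (0 : E d) R) := by
    refine stat_int (C := (N + 1 + N) * (N + N)) ?_ (fun x => ?_) R
    · exact (ContinuousLinearMap.continuous_det.comp (continuous_const.add
        ((hX1.continuous_fderiv one_ne_zero).const_smul t))).abs.measurable.mul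
        (((measurable_en hu).sub ((stat_H_meas hu X).const_mul t)).comp hΦ.measurable)
    · have a1 : t * stat_tr (fderiv ℝ X x) ≤ N := by
        refine (le_abs_self _).trans ?_
        rw [abs_mul]
        exact (mul_le_mul ht2 (n3 x) (abs_nonneg _) zero_le_one).trans_eq (one_mul N)
      have a2 : N * t ^ 2 ≤ N := mul_le_of_le_one_right N0.le ((sq_le_one_iff_abs_le_one t).2 ht2)
      rw [abs_mul, abs_abs]
      refine mul_le_mul (by linarith [(abs_le.1 (hD x)).2]) ((abs_sub _ _).trans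
        (add_le_add (n1 _) ?_)) (abs_nonneg _) (by positivity)
      rw [abs_mul]
      exact (mul_le_mul ht2 (n2 _) (abs_nonneg _) zero_le_one).trans_eq (one_mul N)
  have i5 := c1 fun y => en u y - t * stat_H u X y
  rw [integral_sub i2 (i3.const_mul t), integral_const_mul] at i5
  have i6 := integral_mono_ae i1 (i4.add (integrableOn_const (C := (4 * N ^ 2 + 3 * N) * t ^ 2)
    measure_ball_lt_top.ne)) (ae_restrict_of_ae ((c2 _ h.lip.ae_diff).mono fun x hx => by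
      have d1 : HasFDerivAt (fun x => x + t • X x)
          (ContinuousLinearMap.id ℝ (E d) + t • fderiv ℝ X x) x :=
        (hasFDerivAt_id x).fun_add ((hX1.differentiable one_ne_zero x).hasFDerivAt.fun_const_smul t)
      have d2 : fderiv ℝ (fun x => u (x + t • X x)) x = _ := (hx.hasFDerivAt.comp x d1).fderiv
      have d3 := stat_num ht2 (n1 (x + t • X x)) (n2 (x + t • X x)) (n3 x) (n4 x (x + t • X x))
        (n5 x t) (n6 x (x + t • X x) t) (hD x)
      refine le_trans (le_of_eq ?_) d3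
      simp only [en, d2, stat_sq]
      ring))
  simp only [Pi.add_apply] at i6
  rw [integral_add i4 (integrableOn_const measure_ball_lt_top.ne), ← i5, setIntegral_const,
    smul_eq_mul, measureReal_def] at i6
  linarith

theorem Mn.stat {u : E d → ℝ} (h : Mn u) {X : E d → E d} (hX : ContDiff ℝ 2 X) {R : ℝ}
    (h0 : ∀ x, R ≤ ‖x‖ → X x = 0) :
    ∫ x, (en u x * ∑ i, fderiv ℝ X x (bv i) i -
      2 * fderiv ℝ u x (fderiv ℝ X x (gradient u x))) = 0 := by
  have hR : 0 < |R| + 1 := by positivity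
  have h1 : ∀ x, |R| + 1 ≤ ‖x‖ → X x = 0 := fun x hx => h0 x (by linarith [le_abs_self R])
  have h2 := stat_main h hX hR h1
  rw [stat_out hR fun x hx => ?_] at h2
  · exact h2
  · have e : X =ᶠ[𝓝 x] fun _ => 0 := by
      filter_upwards [continuous_norm.continuousAt.eventually (lt_mem_nhds hx)] with y hy
      exact h1 y hy.le
    simp [stat_H, stat_tr, stat_q, e.fderiv_eq]

end Vale.Agent.P098
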