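import Vale.Agent.P098.C.Stat
import Vale.Agent.P098.B.Var
import Vale.Agent.P098.B.Inv
import Vale.Agent.P098.K.Moll

/-!
# P098 C/WeissA  (helper names start with weissa_)

The Weiss formula with a smooth weight.  Write `w = sc u 0 r` (`Mn.sc`), `p = fderiv w x`.  `scale_deriv` for `av Ψ (en u) 0` and `av ρ (u ^ 2) 0` (`en_sc`, `Mol.grad`).
`Mn.stat` for `w` with `X x = Ψ x • x` (`div X = d Ψ - ρ ‖x‖ ^ 2`, `fderiv X x v = Ψ x • v - (ρ x * ⟪x, v⟫) • x`): `∫ en w (d Ψ - ρ ‖x‖ ^ 2) = ∫ 2 Ψ ‖p‖ ^ 2 - 2 ρ (p x) ^ 2`.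
`Mn.outer` for `w` with `ψ = Ψ w`: `∫ Ψ ‖p‖ ^ 2 = ∫ ρ w (p x)`.  `ibp_euler` with `g = ρ w ^ 2`: `∫ (d ρ + fderiv ρ x x) w ^ 2 = -2 ∫ ρ w (p x)`.
-/

set_option maxSynthPendingDepth 3

open MeasureTheory Filter Topology Set Metric
open scoped ContDiff RealInnerProductSpace NNReal

noncomputable section

namespace Vale.Agent.P098

variable {d : ℕ}

/-- The Weiss energy. -/
def Wf (ρ Ψ u : E d → ℝ) (r : ℝ) : ℝ := av Ψ (en u) 0 r - av ρ (fun y => u y ^ 2) 0 r / r ^ 2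
/-- The defect of homogeneity. -/
def Df (ρ u : E d → ℝ) (r : ℝ) : ℝ := ∫ x, ρ x * (fderiv ℝ (sc u 0 r) x x - sc u 0 r x) ^ 2

variable {u ρ Ψ : E d → ℝ} {c r : ℝ}

/-- measurable and bounded on the unit ball -/
def weissa_B (f : E d → ℝ) : Prop := Measurable f ∧ ∃ C, ∀ x, ‖x‖ ≤ 1 → |f x| ≤ C

theorem weissa_mul {f g : E d → ℝ} (hf : weissa_B f) (hg : weissa_B g) :
    weissa_B fun x => f x * g x := by
  obtain ⟨h1, C, hC⟩ := hf
  obtain ⟨h2, D, hD⟩ := hg
  refine ⟨h1.mul h2, C * D, fun x hx => ?_⟩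
  rw [abs_mul]
  exact mul_le_mul (hC x hx) (hD x hx) (abs_nonneg _) ((abs_nonneg _).trans (hC x hx))

theorem weissa_int {φ f : E d → ℝ} (hφ : Continuous φ) (hz : ∀ x, 1 ≤ ‖x‖ → φ x = 0)
    (hf : weissa_B f) : Integrable fun x => φ x * f x := by
  simpa only [mul_comm] using ibp_int hf.1 hφ.measurable hf.2 (ibp_bd hφ 1) fun x hx => hz x hx.le

theorem weissa_q (h : Lip u) : weissa_B u ∧ (weissa_B fun x => fderiv ℝ u x x) ∧
    (weissa_B fun x => ‖fderiv ℝ u x‖) ∧ weissa_B (en u) := by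
  obtain ⟨C, h0, h1, -⟩ := h.bdd
  obtain ⟨D, hD⟩ := h.en_bdd
  refine ⟨⟨h.continuous.measurable, ibp_bd h.continuous 1⟩, ⟨?_, C * 1, fun x hx => ?_⟩,
    ⟨(measurable_fderiv ℝ u).norm, C, fun x _ => (abs_norm _).trans_le (h1 x)⟩,
    measurable_en h.continuous, D, fun x _ => hD x⟩
  · rw [funext fun x => apply_eq_sum (fderiv ℝ u x) x]
    exact Finset.measurable_fun_sum _ fun i _ => (EuclideanSpace.proj i).measurable.mul
      (measurable_fderiv_apply_const ℝ u (bv i))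
  · exact ((fderiv ℝ u x).le_opNorm x).trans (mul_le_mul (h1 x) hx (norm_nonneg _) h0)

theorem weissa_g (u : E d → ℝ) (x : E d) :
    fderiv ℝ u x (gradient u x) = ‖fderiv ℝ u x‖ * ‖fderiv ℝ u x‖ ∧
      ⟪x, gradient u x⟫ = fderiv ℝ u x x :=
  ⟨by rw [← dot_eq, dot_self, sq], by rw [real_inner_comm, inner_gradient]⟩

theorem weissa_stat (h : Mn u) (hm : Mol ρ Ψ c) :
    ∫ x, (d * Ψ x + fderiv ℝ Ψ x x) * en u x = 2 * (∫ x, Ψ x * (‖fderiv ℝ u x‖ * ‖fderiv ℝ u x‖)) -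
      2 * ∫ x, ρ x * (fderiv ℝ u x x * fderiv ℝ u x x) := by
  obtain ⟨-, b2, b3, b4⟩ := weissa_q h.lip
  have hX : ∀ x v : E d, fderiv ℝ (fun x => Ψ x • x) x v = Ψ x • v - (ρ x * ⟪x, v⟫) • x := by
    intro x v
    have := (hm.sΨ.differentiable (by simp) x).hasFDerivAt.fun_smul (hasFDerivAt_id x)
    rw [show fderiv ℝ (fun x => Ψ x • x) x = _ from this.fderiv]
    simp [hm.grad, sub_eq_add_neg]
  have h1 := h.stat (X := fun x => Ψ x • x) ((hm.sΨ.of_le calc_le2).smul contDiff_id) (R := 1)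
    fun x hx => by rw [(hm.z x hx).2, zero_smul]
  have i1 := weissa_int (φ := fun x => d * Ψ x + fderiv ℝ Ψ x x)
    ((continuous_const.mul hm.sΨ.continuous).add
      ((hm.sΨ.continuous_fderiv (by simp)).clm_apply continuous_id))
    (fun x hx => by simp only [hm.grad, hm.z x hx, mul_zero, zero_mul, neg_zero, add_zero]) b4
  have i2 := (weissa_int hm.sΨ.continuous (fun x hx => (hm.z x hx).2) (weissa_mul b3 b3)).const_mul 2
  have i3 := (weissa_int hm.sρ.continuous (fun x hx => (hm.z x hx).1) (weissa_mul b2 b2)).const_mul 2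
  rw [← integral_const_mul, ← integral_const_mul, ← integral_sub i2 i3, ← sub_eq_zero,
    ← integral_sub i1 (i2.sub' i3), ← h1]
  refine integral_congr_ae (ae_of_all _ fun x => ?_)
  have e : ∑ i, (Ψ x • bv i - (ρ x * ⟪x, bv i⟫) • x) i = d * Ψ x - ρ x * ⟪x, x⟫ := by
    simp only [PiLp.sub_apply, PiLp.smul_apply, smul_eq_mul, bv_apply, if_true, inner_bv,
      Finset.sum_sub_distrib, inner_eq_sum x x, Finset.mul_sum, mul_assoc, mul_one, Finset.sum_const,
      Finset.card_univ, Fintype.card_fin, nsmul_eq_mul]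
  simp only [hX, e, map_sub, map_smul, smul_eq_mul, (weissa_g u x).1, (weissa_g u x).2, hm.grad]
  ring

theorem weissa_outer (h : Mn u) (hm : Mol ρ Ψ c) :
    ∫ x, Ψ x * (‖fderiv ℝ u x‖ * ‖fderiv ℝ u x‖) = ∫ x, ρ x * (u x * fderiv ℝ u x x) := by
  obtain ⟨b1, b2, b3, -⟩ := weissa_q h.lip
  obtain ⟨C, hC⟩ := hm.sΨ.continuous.bounded_above_of_compact_support
    (compact_of_radius fun x hx => (hm.z x hx).2)
  have hz : ∀ x, 1 ≤ ‖x‖ → Ψ x * u x = 0 := fun x hx => by rw [(hm.z x hx).2, zero_mul]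
  have h1 := h.outer (lip_of_loc (loc_mul (hm.sΨ.of_le (by simp)).locallyLipschitz h.lip.loc) hz) hz
    (C := C) fun x => by
      rw [abs_mul, abs_of_nonneg (h.nn x)]
      exact mul_le_mul_of_nonneg_right (hC x) (h.nn x)
  rw [← sub_eq_zero, ← integral_sub
    (weissa_int hm.sΨ.continuous (fun x hx => (hm.z x hx).2) (weissa_mul b3 b3))
    (weissa_int hm.sρ.continuous (fun x hx => (hm.z x hx).1) (weissa_mul b1 b2)), ← h1]
  refine integral_congr_ae ?_
  filter_upwards [h.lip.ae_diff] with x hx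
  rw [dot_comm, dot_eq, fderiv_fun_mul (hm.sΨ.differentiable (by simp) x) hx]
  simp only [_root_.add_apply, _root_.smul_apply, smul_eq_mul, (weissa_g u x).1, (weissa_g u x).2,
    hm.grad]
  ring

theorem weissa_euler (h : Lip u) (hm : Mol ρ Ψ c) :
    ∫ x, (d * ρ x + fderiv ℝ ρ x x) * (u x * u x) = -(2 * ∫ x, ρ x * (u x * fderiv ℝ u x x)) := by
  obtain ⟨b1, b2, -, -⟩ := weissa_q h
  obtain ⟨i1, h1⟩ := ibp_euler (loc_mul (hm.sρ.of_le (by simp)).locallyLipschitz (loc_mul h.loc h.loc))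
    (R := 1) fun x hx => by rw [(hm.z x hx).1, zero_mul]
  have i2 := (weissa_int hm.sρ.continuous (fun x hx => (hm.z x hx).1) (weissa_mul b1 b1)).const_mul d
  have i3 := (weissa_int hm.sρ.continuous (fun x hx => (hm.z x hx).1) (weissa_mul b1 b2)).const_mul 2
  rw [← integral_const_mul, ← add_eq_zero_iff_eq_neg, ← integral_add i1 i2] at h1
  rw [← integral_const_mul, ← zero_sub, ← h1, ← integral_sub (i1.fun_add i2) i3]
  refine integral_congr_ae ?_
  filter_upwards [h.ae_diff] with x hx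
  rw [fderiv_fun_mul (hm.sρ.differentiable (by simp) x) (hx.fun_mul hx),
    fderiv_fun_mul hx hx]
  simp only [_root_.add_apply, _root_.smul_apply, smul_eq_mul]
  ring

theorem weiss (h : Mn u) (hm : Mol ρ Ψ c) (hr : 0 < r) :
    HasDerivAt (Wf ρ Ψ u) (2 * Df ρ u r / r) r := by
  have hw := h.sc 0 hr
  obtain ⟨b1, b2, -, -⟩ := weissa_q hw.lip
  obtain ⟨D, hD⟩ := h.lip.en_bdd
  have l1 : LocallyIntegrable (en u) := (locallyIntegrable_const D).mono
    (measurable_en h.lip.continuous).aestronglyMeasurable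
    (ae_of_all _ fun x => (hD x).trans (le_abs_self D))
  have h1 := scale_deriv (hm.sΨ.of_le (by simp)) (compact_of_radius fun y hy => (hm.z y hy).2) l1 0 hr
  have h2 := scale_deriv (hm.sρ.of_le (by simp)) (compact_of_radius fun y hy => (hm.z y hy).1)
    (f := fun y => u y ^ 2) (h.lip.continuous.pow 2).locallyIntegrable 0 hr
  refine (h1.sub (h2.div (hasDerivAt_pow 2 r) (pow_pos hr 2).ne')).congr_deriv ?_
  have e1 : ∀ φ : E d → ℝ, av φ (fun y => u y ^ 2) 0 r =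
      r ^ 2 * ∫ x, φ x * (sc u 0 r x * sc u 0 r x) := fun φ => by
    rw [av, ← integral_const_mul]
    refine integral_congr_ae (ae_of_all _ fun x => ?_)
    simp only [sc]
    field_simp
  have e2 : ∀ φ : E d → ℝ, av φ (en u) 0 r = ∫ x, φ x * en (sc u 0 r) x := fun φ => by
    simp only [av, en_sc u 0 hr]
  have hz := fun x hx => (hm.z x hx).1
  have i1 := weissa_int hm.sρ.continuous hz (weissa_mul b2 b2)
  have i2 := (weissa_int hm.sρ.continuous hz (weissa_mul b1 b2)).const_mul 2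
  have i3 := weissa_int hm.sρ.continuous hz (weissa_mul b1 b1)
  have e3 : Df ρ u r = (∫ x, ρ x * (fderiv ℝ (sc u 0 r) x x * fderiv ℝ (sc u 0 r) x x)) -
      2 * (∫ x, ρ x * (sc u 0 r x * fderiv ℝ (sc u 0 r) x x)) +
        ∫ x, ρ x * (sc u 0 r x * sc u 0 r x) := by
    rw [← integral_const_mul, ← integral_sub i1 i2, ← integral_add (i1.sub' i2) i3]
    refine integral_congr_ae (ae_of_all _ fun x => ?_)
    ring
  rw [e1, e1, e2, weissa_stat hw hm, weissa_outer hw hm, weissa_euler hw.lip hm, e3]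
  push_cast
  field_simp
  ring

end Vale.Agent.P098
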