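import Vale.Agent.P098.C.WeissA

/-!
# P098 C/WeissB  (helper names start with weissb_)

Consequences of the Weiss formula.  `weiss_test`: `G r = ∫ φ * sc u 0 r = av φ u 0 r / r` has derivative `r⁻¹ ∫ φ * (p x - w)` (`scale_deriv`, `ibp_euler` with `g = φ w`), `|φ y| ≤ δ φ ^ 2 + ρ y ^ 2 / (4 c δ)` (`Mol.low`),
so `± G + δ K log + Wf / (c δ)` is monotone on `Ioi 0` (`monotoneOn_of_hasDerivWithinAt_nonneg` or `monotoneOn_of_deriv_nonneg`).
-/

set_option maxSynthPendingDepth 3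

open MeasureTheory Filter Topology Set Metric
open scoped ContDiff RealInnerProductSpace NNReal

noncomputable section

namespace Vale.Agent.P098

variable {d : ℕ}

variable {u ρ Ψ φ : E d → ℝ} {c : ℝ}

theorem weissb_mono {f f' : ℝ → ℝ} (h : ∀ r, 0 < r → HasDerivAt f (f' r) r)
    (h0 : ∀ r, 0 < r → 0 ≤ f' r) : MonotoneOn f (Ioi 0) := by
  refine monotoneOn_of_deriv_nonneg (convex_Ioi 0)
    (fun r hr => (h r hr).continuousAt.continuousWithinAt) (fun r hr => ?_) fun r hr => ?_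
  · rw [interior_Ioi] at hr
    exact (h r hr).differentiableAt.differentiableWithinAt
  · rw [interior_Ioi] at hr
    rw [(h r hr).deriv]
    exact h0 r hr

theorem weissb_Df (hm : Mol ρ Ψ c) (r : ℝ) : 0 ≤ Df ρ u r :=
  integral_nonneg fun x => mul_nonneg (hm.ρ0 x) (sq_nonneg _)

theorem weissb_meas {w : E d → ℝ} (hw : Lip w) : Measurable fun x => fderiv ℝ w x x - w x := by
  refine Measurable.sub ?_ hw.continuous.measurable
  exact (isBoundedBilinearMap_apply (𝕜 := ℝ) (E := E d) (F := ℝ)).continuous.measurable.comp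
    ((measurable_fderiv ℝ w).prodMk measurable_id)

theorem weissb_bd {w : E d → ℝ} (hw : Lip w) :
    ∃ C, ∀ x, ‖x‖ ≤ 1 → |fderiv ℝ w x x - w x| ≤ C := by
  obtain ⟨L, L0, h1, -⟩ := hw.bdd
  obtain ⟨C, hC⟩ := ibp_bd hw.continuous 1
  refine ⟨L * 1 + C, fun x hx => (abs_sub _ _).trans (add_le_add ?_ (hC x hx))⟩
  exact ((fderiv ℝ w x).le_opNorm x).trans (mul_le_mul (h1 x) hx (norm_nonneg _) L0)

theorem weissb_av (ψ u : E d → ℝ) (r : ℝ) : ∫ x, ψ x * sc u 0 r x = av ψ u 0 r / r := by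
  simp only [sc, av, ← mul_div_assoc, integral_div]

theorem weissb_deriv (h : Mn u) (hφ : ContDiff ℝ 1 φ) (hs : ∀ x, 1 / 2 ≤ ‖x‖ → φ x = 0) {r : ℝ}
    (hr : 0 < r) : HasDerivAt (fun r => av φ u 0 r / r)
      ((∫ x, φ x * (fderiv ℝ (sc u 0 r) x x - sc u 0 r x)) / r) r := by
  have hc := compact_of_radius hs
  have hw := (h.sc 0 hr).lip
  obtain ⟨c1, c2⟩ := moll_psi hφ hc
  obtain ⟨i1, e1⟩ := ibp_euler (g := fun x => φ x * sc u 0 r x) (loc_mul hφ.locallyLipschitz hw.loc)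
    (R := 1 / 2) fun x hx => by rw [hs x hx, zero_mul]
  have i2 : Integrable fun x => φ x * sc u 0 r x :=
    (hφ.continuous.mul hw.continuous).integrable_of_hasCompactSupport hc.mul_right
  have i3 : Integrable fun x => fderiv ℝ φ x x * sc u 0 r x :=
    (c1.mul hw.continuous).integrable_of_hasCompactSupport c2.mul_right
  have e2 : (fun x => φ x * (fderiv ℝ (sc u 0 r) x x - sc u 0 r x)) =ᵐ[volume] fun x =>
      fderiv ℝ (fun x => φ x * sc u 0 r x) x x - fderiv ℝ φ x x * sc u 0 r x -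
        φ x * sc u 0 r x := by
    filter_upwards [hw.ae_diff] with x hx
    rw [fderiv_fun_mul (hφ.differentiable one_ne_zero x) hx]
    simp only [add_apply, smul_apply, smul_eq_mul]
    ring
  have e3 := weissb_av (fun y => d * φ y + fderiv ℝ φ y y) u r
  simp only [add_mul, mul_assoc] at e3
  rw [integral_add (i2.const_mul _) i3, integral_const_mul] at e3
  refine ((scale_deriv hφ hc h.lip.continuous.locallyIntegrable 0 hr).fun_div (hasDerivAt_id' r)
    hr.ne').congr_deriv ?_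
  have i4 : Integrable fun x => fderiv ℝ (fun x => φ x * sc u 0 r x) x x -
      fderiv ℝ φ x x * sc u 0 r x := i1.sub i3
  rw [integral_congr_ae e2, integral_sub i4 i2, integral_sub i1 i3, e1, neg_div, ← e3,
    weissb_av]
  field_simp
  ring

theorem weissb_le (h : Mn u) (hm : Mol ρ Ψ c) (hφ : ContDiff ℝ 1 φ)
    (hs : ∀ x, 1 / 2 ≤ ‖x‖ → φ x = 0) {r δ : ℝ} (hr : 0 < r) (hδ : 0 < δ) :
    |∫ x, φ x * (fderiv ℝ (sc u 0 r) x x - sc u 0 r x)| ≤
      δ * (∫ x, φ x ^ 2) + 2 * Df ρ u r / (c * δ) := by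
  have hw := (h.sc 0 hr).lip
  have c0 := hm.c0
  obtain ⟨C, hC⟩ := weissb_bd hw
  have i1 : Integrable fun x => φ x ^ 2 :=
    (hφ.continuous.pow 2).integrable_of_hasCompactSupport
      (compact_of_radius (R := 1 / 2) fun x hx => by simp [hs x hx])
  have i2 : Integrable fun x => ρ x * (fderiv ℝ (sc u 0 r) x x - sc u 0 r x) ^ 2 :=
    (ibp_int ((weissb_meas hw).pow_const 2) hm.sρ.continuous.measurable (R := 1)
      ⟨C ^ 2, fun x hx => by
        rw [abs_pow]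
        exact pow_le_pow_left₀ (abs_nonneg _) (hC x hx) 2⟩
      (ibp_bd hm.sρ.continuous 1) fun x hx => (hm.z x hx.le).1).congr
      (ae_of_all _ fun x => mul_comm _ _)
  rw [Df, ← integral_const_mul, ← integral_const_mul, ← integral_div,
    ← integral_add (i1.const_mul _) ((i2.const_mul _).div_const _), ← Real.norm_eq_abs]
  refine norm_integral_le_of_norm_le ((i1.const_mul _).add ((i2.const_mul _).div_const _))
    (Eventually.of_forall fun x => ?_)
  set y := fderiv ℝ (sc u 0 r) x x - sc u 0 r x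
  have ρ0 := hm.ρ0 x
  rcases le_total (1 / 2) ‖x‖ with hx | hx
  · rw [hs x hx, zero_mul, norm_zero]
    positivity
  · have k1 : 2 * y ^ 2 / δ ≤ 2 * (ρ x * y ^ 2) / (c * δ) := by
      rw [div_le_div_iff₀ hδ (by positivity)]
      nlinarith [mul_le_mul_of_nonneg_left (hm.low x hx) (by positivity : 0 ≤ y ^ 2 * δ)]
    refine le_trans ?_ (add_le_add le_rfl k1)
    rw [Real.norm_eq_abs, abs_mul, ← sq_abs (φ x), ← sq_abs y, ← sub_le_iff_le_add', le_div_iff₀ hδ]
    nlinarith [sq_nonneg (δ * |φ x| - |y|), sq_nonneg (δ * |φ x|), sq_nonneg |y|]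

theorem weiss_mono (h : Mn u) (hm : Mol ρ Ψ c) : MonotoneOn (Wf ρ Ψ u) (Ioi 0) :=
  weissb_mono (fun _ hr => weiss h hm hr) fun r hr =>
    div_nonneg (mul_nonneg zero_le_two (weissb_Df hm r)) hr.le

theorem weiss_bdd (h : Mn u) (h0 : u 0 = 0) (hm : Mol ρ Ψ c) :
    ∃ C : ℝ, ∀ r : ℝ, 0 < r → |Wf ρ Ψ u r| ≤ C := by
  obtain ⟨A, hA⟩ := h.lip.en_bdd
  obtain ⟨L, L0, -, hL⟩ := h.lip.bdd
  refine ⟨(∫ y, |Ψ y|) * A + (∫ y, |ρ y|) * L ^ 2, fun r hr => (abs_sub _ _).trans (add_le_add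
    (av_abs_le hm.sΨ.continuous (fun y hy => (hm.z y hy).2) hr fun y _ => hA y) ?_)⟩
  rw [abs_div, abs_of_pos (pow_pos hr 2), div_le_iff₀ (pow_pos hr 2), mul_assoc, ← mul_pow]
  refine av_abs_le hm.sρ.continuous (fun y hy => (hm.z y hy).1) hr fun y hy => ?_
  have := hL y 0
  rw [h0, sub_zero] at this
  rw [abs_pow]
  exact pow_le_pow_left₀ (abs_nonneg _) (this.trans (mul_le_mul_of_nonneg_left hy.le L0)) 2

theorem weiss_test (h : Mn u) (hm : Mol ρ Ψ c) (hφ : ContDiff ℝ 1 φ)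
    (hs : ∀ x, 1 / 2 ≤ ‖x‖ → φ x = 0) {a b δ : ℝ} (ha : 0 < a) (hab : a ≤ b) (hδ : 0 < δ) :
    |(∫ x, φ x * sc u 0 b x) - ∫ x, φ x * sc u 0 a x| ≤
      δ * (∫ x, φ x ^ 2) * (Real.log b - Real.log a) + (Wf ρ Ψ u b - Wf ρ Ψ u a) / (c * δ) := by
  have key : ∀ s : ℝ, |s| = 1 → MonotoneOn (fun r => s * (av φ u 0 r / r) +
      δ * (∫ x, φ x ^ 2) * Real.log r + Wf ρ Ψ u r / (c * δ)) (Ioi 0) := fun s h1 => by
    refine weissb_mono (fun r hr => (((weissb_deriv h hφ hs hr).const_mul s).fun_add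
      ((Real.hasDerivAt_log hr.ne').const_mul _)).fun_add ((weiss h hm hr).div_const _))
      fun r hr => ?_
    have k1 := weissb_le h hm hφ hs hr hδ
    set G := ∫ x, φ x * (fderiv ℝ (sc u 0 r) x x - sc u 0 r x)
    have k2 : -(s * G) ≤ |G| := by
      rw [← one_mul |G|, ← h1, ← abs_mul]
      exact neg_le_abs _
    have e : s * (G / r) + δ * (∫ x, φ x ^ 2) * r⁻¹ + 2 * Df ρ u r / r / (c * δ) =
        (s * G + (δ * (∫ x, φ x ^ 2) + 2 * Df ρ u r / (c * δ))) / r := by ring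
    rw [e]
    exact div_nonneg (by linarith) hr.le
  have k1 := key 1 abs_one ha (ha.trans_le hab) hab
  have k2 := key (-1) (by simp) ha (ha.trans_le hab) hab
  simp only at k1 k2
  rw [weissb_av, weissb_av, sub_div, mul_sub]
  exact abs_le.2 ⟨by linarith, by linarith⟩

end Vale.Agent.P098
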