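import Vale.Agent.P098.C.WeissB
import Vale.Agent.P098.C.Lim

/-!
# P098 C/WeissC  (helper names start with weissc_)

Blow-ups are homogeneous.  `Wf` has a limit at `0+` (`MonotoneOn.tendsto_nhdsWithin_Ioo_right` or `Monotone`-type lemma, bounded), so `Wf (s r k) - Wf (r k) → 0`.  `sc u 0 (s * r k) x = sc u 0 (r k) (s • x) / s → U (s • x) / s`; dominated convergence and `weiss_test` give
`∫ φ (U (s • x) / s - U x) = 0` for `s ≥ 1` and all smooth `φ` supported in `ball 0 (1 / 2)` (`δ → 0`), hence equality on the ball (`IsOpen.ae_eq_zero_of_integral_contDiff_smul_eq_zero`, continuity), then everywhere: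
for `s ≥ 1` large with `y = s⁻¹ • x` in the ball and `r s ≥ 1`, `U (r • x) = r s U y = r U x`.
-/

set_option maxSynthPendingDepth 3

open MeasureTheory Filter Topology Set Metric
open scoped ContDiff RealInnerProductSpace NNReal

noncomputable section

namespace Vale.Agent.P098

variable {d : ℕ}

theorem weissc_int {φ f : E d → ℝ} (hφ : Continuous φ) (hs : ∀ x, 1 / 2 ≤ ‖x‖ → φ x = 0)
    (hf : Continuous f) : Integrable fun x => φ x * f x :=
  (hφ.mul hf).integrable_of_hasCompactSupport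
    (compact_of_radius (R := 1 / 2) fun x hx => by simp [hs x hx])

theorem weissc_dom {w : ℕ → E d → ℝ} {V φ : E d → ℝ} {L : ℝ≥0} (hL : ∀ k, LipschitzWith L (w k))
    (h0 : ∀ k, w k 0 = 0) (hV : ∀ x, Tendsto (fun k => w k x) atTop (𝓝 (V x)))
    (hφ : Continuous φ) (hs : ∀ x, 1 / 2 ≤ ‖x‖ → φ x = 0) :
    Tendsto (fun k => ∫ x, φ x * w k x) atTop (𝓝 (∫ x, φ x * V x)) := by
  refine tendsto_integral_of_dominated_convergence (fun x => |φ x| * (L * ‖x‖))
    (fun k => (hφ.mul (hL k).continuous).aestronglyMeasurable)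
    (weissc_int hφ.abs (fun x hx => by simp [hs x hx]) (by fun_prop))
    (fun k => Eventually.of_forall fun x => ?_)
    (Eventually.of_forall fun x => (hV x).const_mul _)
  have := lip_le (hL k) x 0
  rw [h0, sub_zero, sub_zero] at this
  rw [Real.norm_eq_abs, abs_mul]
  exact mul_le_mul_of_nonneg_left this (abs_nonneg _)

theorem weissc_sc (u : E d → ℝ) (s r : ℝ) (x : E d) :
    sc u 0 (s * r) x = sc u 0 r (s • x) / s := by
  simp only [sc, smul_smul, div_div, mul_comm]

theorem weissc_ball {u U : E d → ℝ} (h : Mn u) (h0 : u 0 = 0) {r : ℕ → ℝ} (hr : ∀ k, 0 < r k)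
    (hz : Tendsto r atTop (𝓝 0)) (hU : ∀ x, Tendsto (fun k => sc u 0 (r k) x) atTop (𝓝 (U x)))
    {s : ℝ} (hs : 1 ≤ s) : EqOn (fun x => U (s • x) / s - U x) (fun _ => 0) (ball 0 (1 / 2)) := by
  obtain ⟨ρ, Ψ, c, hm⟩ := exists_mol (d := d)
  obtain ⟨L, hL⟩ := h.lip
  obtain ⟨C, hC⟩ := weiss_bdd h h0 hm
  have s0 : 0 < s := by linarith
  have hsr : ∀ k, 0 < s * r k := fun k => mul_pos s0 (hr k)
  have cU : Continuous U := (lipschitzWith_lim (fun k => lipschitzWith_sc hL 0 (hr k)) hU).continuous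
  have cV : Continuous fun x => U (s • x) / s := by fun_prop
  have hW := (weiss_mono h hm).tendsto_nhdsGT
    ⟨-C, by rintro _ ⟨t, ht, rfl⟩; exact (abs_le.1 (hC t ht)).1⟩
  have t1 : Tendsto r atTop (𝓝[>] 0) :=
    tendsto_nhdsWithin_iff.2 ⟨hz, Eventually.of_forall hr⟩
  have t2 : Tendsto (fun k => s * r k) atTop (𝓝[>] 0) :=
    tendsto_nhdsWithin_iff.2 ⟨by simpa using hz.const_mul s, Eventually.of_forall hsr⟩
  have t3 : Tendsto (fun k => Wf ρ Ψ u (s * r k) - Wf ρ Ψ u (r k)) atTop (𝓝 0) := by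
    simpa using (hW.comp t2).sub (hW.comp t1)
  have hae := isOpen_ball.ae_eq_zero_of_integral_contDiff_smul_eq_zero (μ := volume)
    (U := ball (0 : E d) (1 / 2)) (f := fun x => U (s • x) / s - U x)
    ((cV.sub cU).locallyIntegrable.locallyIntegrableOn _) fun φ hφ _ hsub => by
      have hz' : ∀ x, 1 / 2 ≤ ‖x‖ → φ x = 0 := fun x hx =>
        image_eq_zero_of_notMem_tsupport fun hx' => by
          have := mem_ball_zero_iff.1 (hsub hx')
          linarith
      have a1 := weissc_dom (fun k => lipschitzWith_sc hL 0 (hr k)) (fun k => by simp [sc, h0]) hU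
        hφ.continuous hz'
      have a2 := weissc_dom (V := fun x => U (s • x) / s) (fun k => lipschitzWith_sc hL 0 (hsr k))
        (fun k => by simp [sc, h0])
        (fun x => by simpa only [weissc_sc] using (hU (s • x)).div_const s) hφ.continuous hz'
      have a3 : ∀ δ : ℝ, 0 < δ → |(∫ x, φ x * (U (s • x) / s)) - ∫ x, φ x * U x| ≤
          δ * (∫ x, φ x ^ 2) * Real.log s := fun δ hδ => by
        have b := (tendsto_const_nhds (x := δ * (∫ x, φ x ^ 2) * Real.log s)).add
          (t3.div_const (c * δ))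
        rw [zero_div, add_zero] at b
        refine le_of_tendsto_of_tendsto' (a2.sub a1).abs b fun k => ?_
        have := weiss_test h hm (hφ.of_le (by simp)) hz' (hr k)
          (le_mul_of_one_le_left (hr k).le hs) hδ
        rwa [Real.log_mul s0.ne' (hr k).ne', add_sub_cancel_right] at this
      have a4 : Tendsto (fun δ : ℝ => δ * (∫ x, φ x ^ 2) * Real.log s) (𝓝[>] 0) (𝓝 0) := by
        have : Continuous fun δ : ℝ => δ * (∫ x, φ x ^ 2) * Real.log s := by fun_prop
        simpa using (this.tendsto 0).mono_left nhdsWithin_le_nhds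
      have a5 := ge_of_tendsto a4 (eventually_nhdsWithin_of_forall a3)
      simp only [smul_eq_mul, mul_sub]
      rw [integral_sub (weissc_int hφ.continuous hz' cV) (weissc_int hφ.continuous hz' cU)]
      exact abs_nonpos_iff.1 a5
  exact Measure.eqOn_open_of_ae_eq ((ae_restrict_iff' measurableSet_ball).2 hae) isOpen_ball
    (cV.sub cU).continuousOn continuousOn_const

theorem hom_lim {u U : E d → ℝ} (h : Mn u) (h0 : u 0 = 0) {r : ℕ → ℝ} (hr : ∀ k, 0 < r k)
    (hz : Tendsto r atTop (𝓝 0)) (hU : ∀ x, Tendsto (fun k => sc u 0 (r k) x) atTop (𝓝 (U x))) :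
    Hom U := by
  have key : ∀ s : ℝ, 1 ≤ s → ∀ y : E d, ‖y‖ < 1 / 2 → U (s • y) = s * U y := fun s hs y hy => by
    have h1 : U (s • y) / s - U y = 0 := weissc_ball h h0 hr hz hU hs (mem_ball_zero_iff.2 hy)
    have : s ≠ 0 := by linarith
    field_simp at h1
    linarith
  intro t ht x
  obtain ⟨s, hs1, hs2, hs3⟩ : ∃ s : ℝ, 1 ≤ s ∧ 1 ≤ t * s ∧ 2 * ‖x‖ < s := by
    refine ⟨1 + t⁻¹ + 2 * ‖x‖, ?_, ?_, ?_⟩
    · have := _root_.inv_pos.2 ht
      linarith [norm_nonneg x]
    · have := mul_inv_cancel₀ ht.ne'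
      nlinarith [norm_nonneg x]
    · have := _root_.inv_pos.2 ht
      linarith
  have s0 : 0 < s := by linarith
  have hy : ‖s⁻¹ • x‖ < 1 / 2 := by
    rw [norm_smul, norm_inv, Real.norm_eq_abs, abs_of_pos s0, inv_mul_lt_iff₀ s0]
    linarith
  have e1 := key s hs1 _ hy
  have e2 := key (t * s) hs2 _ hy
  rw [smul_inv_smul₀ s0.ne'] at e1
  rw [mul_smul, smul_inv_smul₀ s0.ne'] at e2
  rw [e2, e1, mul_assoc]

end Vale.Agent.P098
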